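import Vale.Agent.P088.R2.H205.C.SpecI
import Vale.Agent.P088.R2.H551.E.Dens

/-!
# P088, stage 3, zone C: region I from the freezing row, the one direction row and the energy row
-/

open MeasureTheory Set
open scoped ContDiff

noncomputable section

namespace Vale.Agent.P088.R2.H205.CP

open Vale.Agent.P088.LR Vale.Agent.P088.HY
open Vale.Agent.P088.R2.H644 Vale.Agent.P088.R2.H961.GW Vale.Agent.P088.R2.H551.E

variable {n : ℕ}

/-- Continuous with compact support. -/
structure Cc (F : VV n → ℝ) : Prop where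
  c : Continuous F
  s : HasCompactSupport F

namespace Cc

variable {F G g : VV n → ℝ}

theorem int (h : Cc F) : Integrable F := h.c.integrable_of_hasCompactSupport h.s

theorem add (h : Cc F) (h' : Cc G) : Cc fun z => F z + G z := ⟨h.c.add h'.c, h.s.add h'.s⟩

theorem mulL (h : Cc F) (hg : Continuous g) : Cc fun z => g z * F z :=
  ⟨hg.mul h.c, h.s.mul_left⟩

theorem cm (h : Cc F) (a : ℝ) : Cc fun z => a * F z := h.mulL continuous_const

theorem sub (h : Cc F) (h' : Cc G) : Cc fun z => F z - G z := by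
  have := h.add (h'.cm (-1))
  refine ⟨h.c.sub h'.c, ?_⟩
  have e : (fun z => F z - G z) = fun z => F z + -1 * G z := by funext z; ring
  rw [e]; exact this.s

end Cc

theorem Te.cc {F : VV n → ℝ} (h : Te univ F) : Cc F := ⟨h.1.continuous, h.2.1⟩

theorem int_univ (F : VV n → ℝ) : In univ (fun _ => 1) F = ∫ z, F z := by
  unfold In
  simp

/-- The final arithmetic. -/
theorem ri_num {η C1 C3 CM C4 A0 ep A B Wc EK Pk S D Z X Eb Q : ℝ} (hη : 0 < η) (hη1 : η ≤ 1)
    (hCM : 1 ≤ CM) (hC4 : 1 ≤ C4)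
    (hA : 0 ≤ A) (hB : 0 ≤ B) (hW : 0 ≤ Wc) (hP : 0 ≤ Pk) (hS : 0 ≤ S) (hX : 0 ≤ X)
    (h1 : η * (A + B) ≤ Q + C1 * EK + C1 * X)
    (h2 : Q + Pk - C3 * EK - Z ≤ D)
    (h3 : Wc ≤ CM * (A + Eb + X) + 1 / 2 * Wc)
    (h4 : Eb ≤ C4 * B + S + C4 * X)
    (h5 : A0 * EK ≤ Wc) (h5' : 0 ≤ EK) (hA0 : 64 * CM * C4 * (C1 + C3) ≤ A0 * η)
    (h6 : Z ≤ ep * (B + Wc + S + X) + C1 * X) (hep : ep * (64 * CM * C4) ≤ η) :
    η / (32 * CM * C4) * (A + B + Wc + Pk + S) ≤ D + S + (2 * C1 + 2) * X := by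
  have pM : 0 < CM := by linarith
  have p4 : 0 < C4 := by linarith
  have hMC : 1 ≤ CM * C4 := by
    have := mul_le_mul hCM hC4 zero_le_one pM.le
    linarith
  obtain ⟨L, hL⟩ : ∃ L, L = 32 * CM * C4 := ⟨_, rfl⟩
  have pL : 0 < L := by rw [hL]; positivity
  have hL32 : 32 ≤ L := by rw [hL]; linarith
  have w1 : Wc ≤ 2 * CM * (A + (C4 * B + S + C4 * X) + X) := by
    have := mul_le_mul_of_nonneg_left h4 pM.le
    linarith
  have w2 : Wc ≤ 4 * CM * C4 * (A + B + S + X) := by
    have a1 : 0 ≤ CM * A * (C4 - 1) := mul_nonneg (mul_nonneg pM.le hA) (by linarith)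
    have a2 : 0 ≤ CM * S * (C4 - 1) := mul_nonneg (mul_nonneg pM.le hS) (by linarith)
    have a3 : 0 ≤ CM * X * (C4 - 1) := mul_nonneg (mul_nonneg pM.le hX) (by linarith)
    have a4 : 0 ≤ CM * C4 * A := by positivity
    have a5 : 0 ≤ CM * C4 * B := by positivity
    have a6 : 0 ≤ CM * C4 * S := by positivity
    linarith
  obtain ⟨T, hT⟩ : ∃ T, T = η / L * Wc := ⟨_, rfl⟩
  have w3 : T ≤ η / 8 * (A + B + S + X) := by
    have := mul_le_mul_of_nonneg_left w2 (by positivity : 0 ≤ η / L)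
    rw [hT]
    refine this.trans (le_of_eq ?_)
    rw [hL]; field_simp; ring
  have w4 : (C1 + C3) * EK ≤ 1 / 2 * T := by
    have h7 : (C1 + C3) * (2 * L) ≤ A0 * η := by rw [hL]; linarith
    have h8 := mul_le_mul_of_nonneg_right h7 h5'
    have h9 := mul_le_mul_of_nonneg_left h5 hη.le
    have e : 1 / 2 * T = η * Wc / (2 * L) := by rw [hT]; field_simp
    rw [e, le_div_iff₀ (by positivity)]
    linarith
  have w5 : Z ≤ 1 / 2 * T + η / 64 * (B + S + X) + C1 * X := by
    have h7 : ep ≤ η / (2 * L) := by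
      rw [le_div_iff₀ (by positivity), hL]; linarith
    have h8 : Z ≤ η / (2 * L) * (B + Wc + S + X) + C1 * X := by
      have := mul_le_mul_of_nonneg_right h7 (by positivity : 0 ≤ B + Wc + S + X)
      linarith
    have e2 : η / (2 * L) * (B + Wc + S + X) = 1 / 2 * T + η / (2 * L) * (B + S + X) := by
      rw [hT]; field_simp; ring
    have e3 : η / (2 * L) ≤ η / 64 :=
      div_le_div_of_nonneg_left hη.le (by norm_num) (by linarith)
    have e4 : η / (2 * L) * (B + S + X) ≤ η / 64 * (B + S + X) :=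
      mul_le_mul_of_nonneg_right e3 (by positivity)
    linarith
  have e6 : η / L ≤ η / 32 := div_le_div_of_nonneg_left hη.le (by norm_num) (by linarith)
  have e7 : η / L * (A + B + Pk + S) ≤ η / 32 * (A + B + Pk + S) :=
    mul_le_mul_of_nonneg_right e6 (by positivity)
  have e5 : η / (32 * CM * C4) * (A + B + Wc + Pk + S) = T + η / L * (A + B + Pk + S) := by
    rw [hT, ← hL]; ring
  rw [e5]
  have hAη : 0 ≤ η * A := by positivity
  have hBη : 0 ≤ η * B := by positivity
  have hSη : 0 ≤ (1 - η) * S := mul_nonneg (by linarith) hS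
  have hXη : 0 ≤ (1 - η) * X := mul_nonneg (by linarith) hX
  have hPη : 0 ≤ (1 - η) * Pk := mul_nonneg (by linarith) hP
  have hSη0 : 0 ≤ η * S := by positivity
  have hXη0 : 0 ≤ η * X := by positivity
  have hPη0 : 0 ≤ η * Pk := by positivity
  linarith

end Vale.Agent.P088.R2.H205.CP
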