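import Vale.Agent.P088.R2.H205.C.RI
import Vale.Agent.P088.R2.H960.C.RegA
import Vale.Agent.P088.R2.H551.E.Cur

/-!
# P088, stage 3, zone C, region I: the form `Y` in coordinates
-/

open MeasureTheory Set
open scoped ContDiff

noncomputable section

namespace Vale.Agent.P088.R2.H205.CP

open Vale.Agent.P088.LR Vale.Agent.P088.HY
open Vale.Agent.P088.R2.H644 Vale.Agent.P088.R2.H961.GW Vale.Agent.P088.R2.H551.E
open Vale.Agent.P088.R2.H960.C

variable {n : ℕ}

/-- The direction `∂_{q_i}`. -/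
def al (i : Fin n) : VV n := (Pi.single i (1 / 2), -Pi.single i (1 / 2))

/-- The direction `∂_{p_i}`. -/
def be (i : Fin n) : VV n := (Pi.single i 1, Pi.single i 1)

theorem al_eq (i : Fin n) : (al i : VV n) =
    (1 / 2 : ℝ) • ((Pi.single i 1, 0) : VV n) - (1 / 2 : ℝ) • ((0, Pi.single i 1) : VV n) := by
  have h : (Pi.single i (1 / 2 : ℝ) : V n) = (1 / 2 : ℝ) • (Pi.single i 1 : V n) := by
    rw [← Pi.single_smul, smul_eq_mul, mul_one]
  unfold al
  rw [h]
  ext j <;> simp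

theorem be_eq (i : Fin n) : (be i : VV n) =
    ((Pi.single i 1, 0) : VV n) + ((0, Pi.single i 1) : VV n) := by
  unfold be
  ext j <;> simp

theorem fd_al (f : VV n → ℝ) (i : Fin n) (z : VV n) : fderiv ℝ f z (al i) = dq i f z := by
  rw [al_eq, map_sub, map_smul, map_smul]
  unfold dq dx dy
  simp only [smul_eq_mul]; ring

theorem fd_be (f : VV n → ℝ) (i : Fin n) (z : VV n) : fderiv ℝ f z (be i) = dp i f z := by
  rw [be_eq, map_add]
  rfl

section pw

variable {f g W a b : VV n → ℝ} {z : VV n}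

theorem dx_hb (hf : DifferentiableAt ℝ f z) (hg : DifferentiableAt ℝ g z) (i : Fin n) :
    dx i (hb f g) z = (dx i f z + dx i g z) / 2 := by
  have e : hb f g = fun z => (1 / 2 : ℝ) * (f z + g z) := by funext w; unfold hb; ring
  unfold dx
  rw [e, fderiv_const_mul (hf.fun_add hg), fderiv_fun_add hf hg]
  simp only [_root_.smul_apply, _root_.add_apply, smul_eq_mul]; ring

theorem dy_hb (hf : DifferentiableAt ℝ f z) (hg : DifferentiableAt ℝ g z) (i : Fin n) :
    dy i (hb f g) z = (dy i f z + dy i g z) / 2 := by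
  have e : hb f g = fun z => (1 / 2 : ℝ) * (f z + g z) := by funext w; unfold hb; ring
  unfold dy
  rw [e, fderiv_const_mul (hf.fun_add hg), fderiv_fun_add hf hg]
  simp only [_root_.smul_apply, _root_.add_apply, smul_eq_mul]; ring

theorem dx_hd (hf : DifferentiableAt ℝ f z) (hg : DifferentiableAt ℝ g z) (i : Fin n) :
    dx i (hd f g) z = (dx i f z - dx i g z) / 2 := by
  have e : hd f g = fun z => (1 / 2 : ℝ) * (f z - g z) := by funext w; unfold hd; ring
  unfold dx
  rw [e, fderiv_const_mul (hf.fun_sub hg), fderiv_fun_sub hf hg]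
  simp only [_root_.smul_apply, _root_.sub_apply, smul_eq_mul]; ring

theorem dy_hd (hf : DifferentiableAt ℝ f z) (hg : DifferentiableAt ℝ g z) (i : Fin n) :
    dy i (hd f g) z = (dy i f z - dy i g z) / 2 := by
  have e : hd f g = fun z => (1 / 2 : ℝ) * (f z - g z) := by funext w; unfold hd; ring
  unfold dy
  rw [e, fderiv_const_mul (hf.fun_sub hg), fderiv_fun_sub hf hg]
  simp only [_root_.smul_apply, _root_.sub_apply, smul_eq_mul]; ring

/-- The form `Y` of helper960 in coordinates. -/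
theorem YG_eq (hf : DifferentiableAt ℝ f z) (hg : DifferentiableAt ℝ g z) :
    YG (fun i _ => al i) (fun i _ => be i) (fun i => dq i W) (fun i => dp i W)
      (hb f g) (hd f g) z = s2 (Uu W f z - Uv W g z) := by
  unfold YG YY s2
  refine Finset.sum_congr rfl fun i _ => ?_
  congr 1
  unfold Yi
  simp only [fd_al, fd_be]
  unfold dq dp
  rw [dx_hb hf hg, dy_hb hf hg, dx_hd hf hg, dy_hd hf hg]
  simp only [Pi.sub_apply, Uu, Uv, hb, hd]
  ring

theorem ctc_le (χ b c : VV n → ℝ) (z : VV n) :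
    ctc (fun i _ => al i) (fun i _ => be i) χ b c z ≤
      8 * (gq χ z * b z ^ 2 + gp χ z * c z ^ 2) := by
  unfold ctc gq gp
  rw [Finset.sum_mul, Finset.sum_mul, ← Finset.sum_add_distrib, Finset.mul_sum]
  refine Finset.sum_le_sum fun i _ => ?_
  simp only [fd_al, fd_be]
  nlinarith [sq_nonneg (2 * (dq i χ z * b z) - dp i χ z * c z), sq_nonneg (dp i χ z * c z)]

theorem ctc_ge (χ b c : VV n → ℝ) (z : VV n) :
    0 ≤ ctc (fun i _ => al i) (fun i _ => be i) χ b c z :=
  Finset.sum_nonneg fun _ _ => sq_nonneg _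

theorem dx_qp (i : Fin n) (f : VV n → ℝ) (z : VV n) : dx i f z = dp i f z / 2 + dq i f z := by
  unfold dp dq; ring

theorem dy_qp (i : Fin n) (f : VV n → ℝ) (z : VV n) : dy i f z = dp i f z / 2 - dq i f z := by
  unfold dp dq; ring

theorem sx_le (f : VV n → ℝ) (z : VV n) : ∑ i, dx i f z ^ 2 ≤ 2 * (gq f z + gp f z) := by
  unfold gq gp
  rw [← Finset.sum_add_distrib, Finset.mul_sum]
  refine Finset.sum_le_sum fun i _ => ?_
  rw [dx_qp]
  nlinarith [sq_nonneg (dp i f z / 2 - dq i f z), sq_nonneg (dp i f z)]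

theorem sy_le (f : VV n → ℝ) (z : VV n) : ∑ i, dy i f z ^ 2 ≤ 2 * (gq f z + gp f z) := by
  unfold gq gp
  rw [← Finset.sum_add_distrib, Finset.mul_sum]
  refine Finset.sum_le_sum fun i _ => ?_
  rw [dy_qp]
  nlinarith [sq_nonneg (dp i f z / 2 + dq i f z), sq_nonneg (dp i f z)]

/-- `|X b|² ≤ 2 b² |DW|² + 2 |D b|²`. -/
theorem s2U_le (W b : VV n → ℝ) (z : VV n) :
    s2 (Uu W b z) ≤ 2 * b z ^ 2 * (∑ i, dx i W z ^ 2) + 2 * ∑ i, dx i b z ^ 2 := by
  unfold s2 Uu
  rw [Finset.mul_sum, Finset.mul_sum, ← Finset.sum_add_distrib]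
  refine Finset.sum_le_sum fun i _ => ?_
  nlinarith [sq_nonneg (b z * dx i W z + dx i b z)]

theorem s2V_le (W b : VV n → ℝ) (z : VV n) :
    s2 (Uv W b z) ≤ 2 * b z ^ 2 * (∑ i, dy i W z ^ 2) + 2 * ∑ i, dy i b z ^ 2 := by
  unfold s2 Uv
  rw [Finset.mul_sum, Finset.mul_sum, ← Finset.sum_add_distrib]
  refine Finset.sum_le_sum fun i _ => ?_
  nlinarith [sq_nonneg (b z * dy i W z + dy i b z)]

end pw

end Vale.Agent.P088.R2.H205.CP
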