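import Vale.Agent.P088.R2.H205.C.RIa

/-!
# P088, stage 3, zone C, region I: energies
-/

open MeasureTheory Set
open scoped ContDiff

noncomputable section

namespace Vale.Agent.P088.R2.H205.CP

open Vale.Agent.P088.LR Vale.Agent.P088.HY
open Vale.Agent.P088.R2.H644 Vale.Agent.P088.R2.H961.GW Vale.Agent.P088.R2.H551.E
open Vale.Agent.P088.R2.H960.C

variable {n : ℕ}

/-- The quadratic form of a slot. -/
def qf (σ : Sl (VV n) (Fin n)) (z : VV n) (ξ : Fin n → ℝ) : ℝ :=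
  ∑ i, ∑ j, σ.s i j z * ξ i * ξ j

/-- A slot with the derivations `D` (`dx` or `dy`), `1/2 ≤ s ≤ 2`. -/
structure Sc (σ : Sl (VV n) (Fin n)) (D : Fin n → (VV n → ℝ) → VV n → ℝ) : Prop where
  ok : σ.Ok univ fun _ => 1
  dd : ∀ i f z, σ.D i f z = D i f z
  lo : ∀ z ξ, ∑ i, ξ i ^ 2 ≤ 2 * qf σ z ξ
  up : ∀ z ξ, qf σ z ξ ≤ 2 * ∑ i, ξ i ^ 2

section pw

variable {σ : Sl (VV n) (Fin n)} {D : Fin n → (VV n → ℝ) → VV n → ℝ} {W v f g a χ gf m : VV n → ℝ}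
  {z : VV n}

theorem G_qf (σ : Sl (VV n) (Fin n)) (f : VV n → ℝ) (z : VV n) :
    σ.Γ f f z = qf σ z fun i => σ.D i f z := rfl

theorem Sc.q0 (h : Sc σ D) (z : VV n) (ξ : Fin n → ℝ) : 0 ≤ qf σ z ξ := by
  have := h.lo z ξ
  have h2 : 0 ≤ ∑ i, ξ i ^ 2 := Finset.sum_nonneg fun _ _ => sq_nonneg _
  linarith

theorem qf_par (σ : Sl (VV n) (Fin n)) (z : VV n) (x y : Fin n → ℝ) :
    qf σ z (fun i => x i + y i) + qf σ z (fun i => x i - y i) = 2 * qf σ z x + 2 * qf σ z y := by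
  unfold qf
  rw [Finset.mul_sum, Finset.mul_sum, ← Finset.sum_add_distrib, ← Finset.sum_add_distrib]
  refine Finset.sum_congr rfl fun i _ => ?_
  rw [Finset.mul_sum, Finset.mul_sum, ← Finset.sum_add_distrib, ← Finset.sum_add_distrib]
  refine Finset.sum_congr rfl fun j _ => ?_
  ring

theorem Sc.q_add (h : Sc σ D) (z : VV n) (x y : Fin n → ℝ) :
    qf σ z (fun i => x i + y i) ≤ 2 * qf σ z x + 2 * qf σ z y := by
  have := qf_par σ z x y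
  have := h.q0 z fun i => x i - y i
  linarith

theorem qf_smul (σ : Sl (VV n) (Fin n)) (z : VV n) (t : ℝ) (x : Fin n → ℝ) :
    qf σ z (fun i => t * x i) = t ^ 2 * qf σ z x := by
  unfold qf
  rw [Finset.mul_sum]
  refine Finset.sum_congr rfl fun i _ => ?_
  rw [Finset.mul_sum]
  exact Finset.sum_congr rfl fun j _ => by ring

/-- `Γ(χ² g, χ² g) ≤ 8 χ² g² Γ(χ, χ) + 2 χ⁴ Γ(g, g)`. -/
theorem Sc.G_m (h : Sc σ D) (hχ : ContDiff ℝ ∞ χ) (hg : ContDiff ℝ ∞ g) (z : VV n) :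
    σ.Γ (fun z => χ z ^ 2 * g z) (fun z => χ z ^ 2 * g z) z ≤
      8 * (χ z ^ 2 * g z ^ 2 * σ.Γ χ χ z) + 2 * (χ z ^ 4 * σ.Γ g g z) := by
  rw [G_qf]
  have e : (fun i => σ.D i (fun z => χ z ^ 2 * g z) z) = fun i =>
      (2 * χ z * g z) * σ.D i χ z + χ z ^ 2 * σ.D i g z := by
    funext i
    rw [D_mul σ isOpen_univ (hχ.contDiffOn.pow 2) hg.contDiffOn i (mem_univ z),
      D_sq σ isOpen_univ hχ.contDiffOn i (mem_univ z)]
    ring
  rw [e]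
  refine (h.q_add z _ _).trans (le_of_eq ?_)
  rw [qf_smul, qf_smul, ← G_qf, ← G_qf]
  ring

theorem Sc.D2 (h : Sc σ D) (a : VV n → ℝ) (z : VV n) : ∑ i, D i a z ^ 2 ≤ 2 * σ.Γ a a z := by
  rw [G_qf]
  have := h.lo z fun i => σ.D i a z
  simpa only [h.dd] using this

theorem Sc.F2 (h : Sc σ D) (W : VV n → ℝ) (z : VV n) : ∑ i, D i W z ^ 2 ≤ 2 * σ.F W z := h.D2 W z

theorem Sc.G2 (h : Sc σ D) (a : VV n → ℝ) (z : VV n) : σ.Γ a a z ≤ 2 * ∑ i, D i a z ^ 2 := by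
  rw [G_qf]
  have := h.up z fun i => σ.D i a z
  simpa only [h.dd] using this

theorem P_hb (ok : σ.Ok univ fun _ => (1 : ℝ)) (hW : ContDiff ℝ ∞ W) (hf : ContDiff ℝ ∞ f)
    (hg : ContDiff ℝ ∞ g) (z : VV n) :
    σ.P v W (hb f g) z = (σ.P v W f z + σ.P v W g z) / 2 := by
  have e : hb f g = fun z => (1 / 2 : ℝ) * (f z + g z) := by funext w; unfold hb; ring
  have hs : Sm univ fun z => f z + g z := (hf.add hg).contDiffOn
  rw [e, ← P_add ok hW.contDiffOn hf.contDiffOn hg.contDiffOn (mem_univ z)]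
  unfold Sl.P Sl.K
  rw [L_cmul ok _ hs (mem_univ z), G_cmul ok W _ hs (mem_univ z)]
  ring

end pw

end Vale.Agent.P088.R2.H205.CP
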