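import Vale.Agent.P088.R2.H205.C.SpecI
import Vale.Agent.P088.R2.H551.E.Cur

/-!
# P088, stage 3, zone C, region I: the rows with the right order of the constants
-/

open Set Filter MeasureTheory
open scoped ContDiff Topology

noncomputable section

namespace Vale.Agent.P088.R2.H205.CP

open Vale.Agent.P088.LR Vale.Agent.P088.HY
open Vale.Agent.P088.R2.H644 Vale.Agent.P088.R2.H961.GW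

variable {n : ℕ}

/-- The cells of region I; the constant `C₃` of `K` is separate (it comes late). -/
structure Cel' (κ₀ C₂ C₃ c₀ c K₀ lam : ℝ) (W Ef Kf : VV n → ℝ) (O : Set (VV n)) : Prop where
  k0 : ∀ z ∈ O, K₀ ≤ Kf z
  r0 : ∀ z ∈ O, qq z ≤ c₀ ^ 2
  t0 : ∀ z ∈ O, Ef z * qq z ≤ c * Kf z
  np : ∀ z ∈ O, ∃ i, dp i W z ≠ 0
  ef : ∀ z ∈ O, ∀ z' ∈ O, ‖vp z - vp z'‖ ≤ lam →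
    |Ef z - Ef z'| ≤ Ef z * (C₂ * ‖vp z - vp z'‖ + κ₀)
  kf : ∀ z ∈ O, ∀ z' ∈ O, ‖vp z - vp z'‖ ≤ lam →
    |Kf z - Kf z'| ≤ Kf z * (C₃ * ‖vp z - vp z'‖ + κ₀)
  wq : ∀ z ∈ O, ∀ z' ∈ O, ‖vp z - vp z'‖ ≤ lam → ∀ i,
    |dq i W z - dq i W z' - Ef z' * (vq z i - vq z' i)| ≤
      κ₀ * Ef z * ‖vq z - vq z'‖ + C₂ * Ef z * (‖vq z‖ + ‖vq z'‖) * ‖vp z - vp z'‖ +
      κ₀ * Real.sqrt (Ef z)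
  wp : ∀ z ∈ O, ∀ z' ∈ O, ‖vp z - vp z'‖ ≤ lam → ∀ i,
    |dp i W z - dp i W z'| ≤ C₂ * ((Kf z + Ef z * (‖vq z‖ + ‖vq z'‖) ^ 2) * ‖vp z - vp z'‖ +
      Ef z * (‖vq z‖ + ‖vq z'‖) * ‖vq z - vq z'‖ + Real.sqrt (Kf z))

/-- **(AI')** the freezing inequality; `c₀`, `c`, `C` do not depend on `C₃`. -/
def RowAI' : Prop := ∀ n : ℕ, 3 ≤ n → ∃ δ η κ₀ : ℝ, 0 < δ ∧ 0 < η ∧ 0 < κ₀ ∧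
  ∀ C₂ : ℝ, 0 < C₂ → ∃ c₀ c C : ℝ, 0 < c₀ ∧ 0 < c ∧ 0 < C ∧
  ∀ C₃ : ℝ, 0 < C₃ → ∃ K₀ lam : ℝ, 0 < K₀ ∧ 0 < lam ∧ lam ≤ 1 / C₃ ∧
  ∀ (O : Set (VV n)) (W Ef Kf χ f g : VV n → ℝ), ContDiff ℝ ∞ W → Continuous Ef →
  Continuous Kf → (∀ z, 0 < Ef z) → Cel' κ₀ C₂ C₃ c₀ c K₀ lam W Ef Kf O →
  ContDiff ℝ ∞ χ → tsupport χ ⊆ O → Te univ f → Te univ g →
  η * ∫ z, χ z ^ 2 * (Ef z * s2 (Uu W f z - Uv W g z) + Ef z ^ 2 * hb f g z ^ 2) ≤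
    (∫ z, χ z ^ 2 * (8 * (1 - δ) * Ef z * s2 (Uu W f z - Uv W g z) -
      32 * n * (1 + δ) * Ef z ^ 2 * hb f g z ^ 2 + C * Ef z * Kf z * hd f g z ^ 2)) +
    C * ∫ z, Ef z * ((gq χ z + gp χ z) * hb f g z ^ 2 + gp χ z * hd f g z ^ 2)

/-- **(PI')** as `RowPI`; only `C₁` depends on `Cd`. -/
def RowPI' : Prop := ∀ (n : ℕ) (Cs δ : ℝ), 0 < Cs → 0 < δ →
  ∃ a ε c₀ c C : ℝ, 0 < a ∧ 0 < ε ∧ 0 < c₀ ∧ c₀ ≤ 1 / 2 ∧ 0 < c ∧ 0 < C ∧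
  ∀ Cd : ℝ, 0 < Cd → ∃ C₁ : ℝ, 0 < C₁ ∧
  ∀ (ν : V n) (w : WF) (p : PF) (I : Set ℝ), s2 ν = 1 → PD Cs p → WD ε Cd w I →
  ∀ z : VV n, hν ν z ∈ I → qq z ≤ 4 * c₀ ^ 2 → C₁ ≤ w.φ₂ (hν ν z) →
  w.φ₂ (hν ν z) ≤ a * w.G (hν ν z) → w.G (hν ν z) * qq z ≤ c * w.φ₂ (hν ν z) →
  ∀ (U V : V n) (x y : ℝ),
  8 * (1 - δ) * w.G (hν ν z) * s2 (U - V) +
    w.φ₂ (hν ν z) * (∑ i, ν i * (U i + V i)) ^ 2 -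
    32 * n * (1 + δ) * w.G (hν ν z) ^ 2 * ((x + y) / 2) ^ 2 -
    C * w.G (hν ν z) * w.φ₂ (hν ν z) * ((x - y) / 2) ^ 2 ≤ st (Wg ν w p) U V x y z

/-- The star density with free vectors. -/
def pwI (σ τ : Sl (VV n) (Fin n)) (v₁ v₂ W Ef Kf : VV n → ℝ) (ν : Fin n → VV n → ℝ)
    (δ C₃ ep : ℝ) (O : Set (VV n)) : Prop :=
  ∀ f g, Te univ f → Te univ g → ∀ z ∈ O,
    8 * (1 - δ) * (Ef z * s2 (Uu W f z - Uv W g z)) +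
      Kf z * (∑ i, ν i z * (Uu W f z i + Uv W g z i)) ^ 2 -
      32 * n * (1 + δ) * (Ef z ^ 2 * hb f g z ^ 2) - C₃ * (Ef z * Kf z * hd f g z ^ 2) -
      ep * (s2 (Uu W f z) + s2 (Uv W g z) + f z ^ 2 + g z ^ 2) ≤
    H551.E.sta σ τ v₁ v₂ W f g z

/-- The remaining pointwise hypotheses of region I. -/
structure RIs (σ τ : Sl (VV n) (Fin n)) (W Ef Kf gf : VV n → ℝ) (ν : Fin n → VV n → ℝ)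
    (C₂ A₀ : ℝ) (O : Set (VV n)) : Prop where
  oσ : σ.Ok univ fun _ => 1
  oτ : τ.Ok univ fun _ => 1
  dσ : ∀ i f z, σ.D i f z = dx i f z
  dτ : ∀ i f z, τ.D i f z = dy i f z
  loσ : ∀ z (ξ : Fin n → ℝ), ∑ i, ξ i ^ 2 ≤ 2 * ∑ i, ∑ j, σ.s i j z * ξ i * ξ j
  loτ : ∀ z (ξ : Fin n → ℝ), ∑ i, ξ i ^ 2 ≤ 2 * ∑ i, ∑ j, τ.s i j z * ξ i * ξ j
  upσ : ∀ z (ξ : Fin n → ℝ), ∑ i, ∑ j, σ.s i j z * ξ i * ξ j ≤ 2 * ∑ i, ξ i ^ 2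
  upτ : ∀ z (ξ : Fin n → ℝ), ∑ i, ∑ j, τ.s i j z * ξ i * ξ j ≤ 2 * ∑ i, ξ i ^ 2
  sW : ContDiff ℝ ∞ W
  sE : ContDiff ℝ ∞ Ef
  sK : Continuous Kf
  sg : ContDiff ℝ ∞ gf
  sν : ∀ i, ContDiff ℝ ∞ (ν i)
  E0 : ∀ z, 0 < Ef z
  e1 : ∀ z ∈ O, 1 ≤ Ef z
  k0 : ∀ z ∈ O, 0 ≤ Kf z
  g0 : ∀ z ∈ O, 0 ≤ gf z
  g1 : ∀ z ∈ O, gf z ≤ Ef z
  gF : ∀ z ∈ O, gf z * σ.F W z ≤ C₂ * Ef z ^ 2 ∧ gf z * τ.F W z ≤ C₂ * Ef z ^ 2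
  gG : ∀ z ∈ O, (∑ i, dx i gf z ^ 2) + (∑ i, dy i gf z ^ 2) ≤ C₂ * (gf z ^ 2 * Ef z)
  gν : ∀ z ∈ O, (∑ i, ν i z * dp i gf z) ^ 2 ≤ C₂ * gf z ^ 2
  ν1 : ∀ z ∈ O, ∑ i, ν i z ^ 2 ≤ 1
  m1 : ∀ z ∈ O, |(∑ i, ∑ j, ν i z * dp i (ν j) z * dp j W z) +
    (∑ i, ∑ j, ν i z * ν j z * dp i (dp j W) z)| ≤ (∑ i, ν i z * dp i W z) ^ 2 / 8
  m2 : ∀ z ∈ O, |∑ i, dp i (ν i) z| ≤ |∑ i, ν i z * dp i W z| / 8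
  aM : ∀ z ∈ O, A₀ ≤ (∑ i, ν i z * dp i W z) ^ 2
  aK : ∀ z ∈ O, A₀ * (Ef z * Kf z) ≤ gf z * (∑ i, ν i z * dp i W z) ^ 2
  aF : ∀ z ∈ O, A₀ * (σ.F W z + τ.F W z + 1) ≤ gf z * (∑ i, ν i z * dp i W z) ^ 2
  aE : ∀ z ∈ O, A₀ * (σ.F W z + τ.F W z + 1) ≤ Ef z ^ 2

end Vale.Agent.P088.R2.H205.CP
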