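import Vale.Agent.P088.R2.H205.C.RIb
import Vale.Agent.P088.R2.H205.C.SpecR

/-!
# P088, stage 3, zone C, region I: the energy estimates
-/

open MeasureTheory Set
open scoped ContDiff

noncomputable section

namespace Vale.Agent.P088.R2.H205.CP

open Vale.Agent.P088.LR Vale.Agent.P088.HY
open Vale.Agent.P088.R2.H644 Vale.Agent.P088.R2.H961.GW Vale.Agent.P088.R2.H551.E
open Vale.Agent.P088.R2.H960.C

variable {n : ℕ}

theorem chi0 {χ : VV n → ℝ} {z : VV n} (hz : z ∉ tsupport χ) : χ z = 0 :=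
  image_eq_zero_of_notMem_tsupport hz

theorem fdchi0 {χ : VV n → ℝ} {z : VV n} (hz : z ∉ tsupport χ) : fderiv ℝ χ z = 0 := by
  by_contra hc
  exact hz (support_fderiv_subset ℝ hc)

theorem Gchi0 (σ : Sl (VV n) (Fin n)) {χ : VV n → ℝ} {z : VV n} (hz : z ∉ tsupport χ) :
    σ.Γ χ χ z = 0 := by
  unfold Sl.Γ Sl.D
  simp [fdchi0 hz]

theorem gq0 {χ : VV n → ℝ} {z : VV n} (hz : z ∉ tsupport χ) : gq χ z = 0 := by
  unfold gq dq dx dy
  simp [fdchi0 hz]

theorem gp0 {χ : VV n → ℝ} {z : VV n} (hz : z ∉ tsupport χ) : gp χ z = 0 := by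
  unfold gp dp dx dy
  simp [fdchi0 hz]

theorem gq_nn (χ : VV n → ℝ) (z : VV n) : 0 ≤ gq χ z := Finset.sum_nonneg fun _ _ => sq_nonneg _

theorem gp_nn (χ : VV n → ℝ) (z : VV n) : 0 ≤ gp χ z := Finset.sum_nonneg fun _ _ => sq_nonneg _

theorem s2_nn (v : V n) : 0 ≤ s2 v := Finset.sum_nonneg fun _ _ => sq_nonneg _

/-- Continuity of the derivatives of a smooth function. -/
theorem c_fd {f : VV n → ℝ} (hf : ContDiff ℝ ∞ f) (v : VV n) :
    Continuous fun z => fderiv ℝ f z v :=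
  (hf.continuous_fderiv (by simp)).clm_apply continuous_const

theorem c_dx {f : VV n → ℝ} (hf : ContDiff ℝ ∞ f) (i : Fin n) : Continuous (dx i f) := c_fd hf _

theorem c_dy {f : VV n → ℝ} (hf : ContDiff ℝ ∞ f) (i : Fin n) : Continuous (dy i f) := c_fd hf _

theorem c_gq {f : VV n → ℝ} (hf : ContDiff ℝ ∞ f) : Continuous (gq f) :=
  continuous_finsetSum _ fun i _ => (((c_dx hf i).sub (c_dy hf i)).div_const 2).pow 2

theorem c_gp {f : VV n → ℝ} (hf : ContDiff ℝ ∞ f) : Continuous (gp f) :=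
  continuous_finsetSum _ fun i _ => ((c_dx hf i).add (c_dy hf i)).pow 2

theorem Te.hb {f g : VV n → ℝ} (hf : Te univ f) (hg : Te univ g) : Te univ (hb f g) :=
  ((hf.add isOpen_univ hg).cmul isOpen_univ (1 / 2)).congr fun z => by unfold CP.hb; ring

theorem Te.hd {f g : VV n → ℝ} (hf : Te univ f) (hg : Te univ g) : Te univ (hd f g) :=
  ((hf.sub isOpen_univ hg).cmul isOpen_univ (1 / 2)).congr fun z => by unfold CP.hd; ring

/-- `g b²` for continuous `g`. -/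
theorem cc_sq {g b : VV n → ℝ} (hg : Continuous g) (hb : Te univ b) :
    Cc fun z => g z * b z ^ 2 :=
  (Te.cc (hb.sq isOpen_univ)).mulL hg

/-- The energy row for one slot. -/
def ENs (CE : ℝ) (σ : Sl (VV n) (Fin n)) (v W : VV n → ℝ) : Prop :=
  ∀ (m h om k a : VV n → ℝ) (κ : ℝ), Sm univ m → Sm univ h → Sm univ om → Sm univ k →
    Te univ a → 0 < κ → (∀ z ∈ (univ : Set (VV n)), 0 ≤ m z ∧ 0 ≤ h z ∧ 0 ≤ om z ∧ 0 ≤ k z) →
    (∀ z ∈ (univ : Set (VV n)), σ.Γ m m z ≤ m z * h z) →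
    (∀ z ∈ (univ : Set (VV n)), m z ^ 2 ≤ om z * k z) →
    In univ (fun _ => 1) (fun z => m z * σ.Γ a a z) ≤
      CE * In univ (fun _ => 1)
        (fun z => (m z * σ.F W z + m z * |v z| + h z + k z / κ) * a z ^ 2) +
      κ * In univ (fun _ => 1) (fun z => om z * σ.P v W a z ^ 2)

/-- The energy of a slot for `m = χ² g`. -/
theorem en_b {CE : ℝ} (hCE : 0 ≤ CE) {σ : Sl (VV n) (Fin n)} {D : Fin n → (VV n → ℝ) → VV n → ℝ}
    (h : Sc σ D) {v W Ef gf χ b : VV n → ℝ} {C₂ : ℝ} (hC₂ : 0 ≤ C₂) (hEN : ENs CE σ v W)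
    (sv : ContDiff ℝ ∞ v) (sW : ContDiff ℝ ∞ W) (sE : ContDiff ℝ ∞ Ef)
    (sg : ContDiff ℝ ∞ gf) (sχ : ContDiff ℝ ∞ χ)
    (e1 : ∀ z ∈ tsupport χ, 1 ≤ Ef z) (g0 : ∀ z ∈ tsupport χ, 0 ≤ gf z)
    (g1 : ∀ z ∈ tsupport χ, gf z ≤ Ef z) (bv : ∀ z ∈ tsupport χ, |v z| ≤ 1)
    (gF : ∀ z ∈ tsupport χ, gf z * σ.F W z ≤ C₂ * Ef z ^ 2)
    (gG : ∀ z ∈ tsupport χ, σ.Γ gf gf z ≤ C₂ * (gf z ^ 2 * Ef z)) (hb : Te univ b) :
    ∫ z, χ z ^ 2 * gf z * σ.Γ b b z ≤
      CE * ((3 * C₂ + 5) * (∫ z, χ z ^ 2 * (Ef z ^ 2 * b z ^ 2)) +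
        8 * ∫ z, Ef z * σ.Γ χ χ z * b z ^ 2) +
      1 / 4 * ∫ z, χ z ^ 2 * σ.P v W b z ^ 2 := by
  have sG : Sm univ (σ.Γ χ χ) := h.ok.sG sχ.contDiffOn sχ.contDiffOn
  have cG : Continuous (σ.Γ χ χ) := continuousOn_univ.1 sG.continuousOn
  have cF : Continuous (σ.F W) := continuousOn_univ.1 (h.ok.sF sW.contDiffOn).continuousOn
  have key := hEN (fun z => χ z ^ 2 * gf z)
    (fun z => 8 * (Ef z * σ.Γ χ χ z) + 2 * C₂ * (χ z ^ 2 * Ef z ^ 2))
    (fun z => χ z ^ 2) (fun z => χ z ^ 2 * Ef z ^ 2) b (1 / 4)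
    ((sχ.pow 2).mul sg).contDiffOn
    ((contDiffOn_const.mul (sE.contDiffOn.mul sG)).add
      (contDiffOn_const.mul ((sχ.pow 2).mul (sE.pow 2)).contDiffOn))
    (sχ.pow 2).contDiffOn ((sχ.pow 2).mul (sE.pow 2)).contDiffOn hb (by norm_num)
    (fun z _ => by
      by_cases hz : z ∈ tsupport χ
      · have h1 := e1 z hz
        have h2 := g0 z hz
        have h3 : 0 ≤ σ.Γ χ χ z := h.q0 z _
        refine ⟨by positivity, by positivity, by positivity, by positivity⟩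
      · simp only [chi0 hz, Gchi0 σ hz]
        norm_num)
    (fun z _ => by
      by_cases hz : z ∈ tsupport χ
      · refine (h.G_m sχ sg z).trans ?_
        have h1 := e1 z hz
        have h2 := g0 z hz
        have h3 : 0 ≤ σ.Γ χ χ z := h.q0 z _
        have h4 := gG z hz
        have h5 := g1 z hz
        have h6 : χ z ^ 2 * gf z ^ 2 * σ.Γ χ χ z ≤ χ z ^ 2 * gf z * (Ef z * σ.Γ χ χ z) := by
          have := mul_le_mul_of_nonneg_left h5 (by positivity : 0 ≤ χ z ^ 2 * gf z * σ.Γ χ χ z)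
          nlinarith
        have h7 : χ z ^ 4 * σ.Γ gf gf z ≤ χ z ^ 4 * (C₂ * (gf z ^ 2 * Ef z)) :=
          mul_le_mul_of_nonneg_left h4 (by positivity)
        have h8 : χ z ^ 4 * (C₂ * (gf z ^ 2 * Ef z)) ≤
            χ z ^ 2 * gf z * (C₂ * (χ z ^ 2 * Ef z ^ 2)) := by
          have := mul_le_mul_of_nonneg_left h5
            (by positivity : 0 ≤ χ z ^ 4 * C₂ * (gf z * Ef z))
          nlinarith
        nlinarith
      · have e : σ.Γ (fun z => χ z ^ 2 * gf z) (fun z => χ z ^ 2 * gf z) z = 0 := by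
          have h1 := h.G_m sχ sg z
          rw [chi0 hz] at h1
          have h2 : 0 ≤ σ.Γ (fun z => χ z ^ 2 * gf z) (fun z => χ z ^ 2 * gf z) z := h.q0 z _
          have h3 : 8 * ((0 : ℝ) ^ 2 * gf z ^ 2 * σ.Γ χ χ z) + 2 * (0 ^ 4 * σ.Γ gf gf z) = 0 := by
            ring
          linarith
        rw [e, chi0 hz]
        simp)
    (fun z _ => by
      by_cases hz : z ∈ tsupport χ
      · have h2 := g0 z hz
        have h5 := g1 z hz
        have h6 : gf z ^ 2 ≤ Ef z ^ 2 := pow_le_pow_left₀ h2 h5 2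
        have := mul_le_mul_of_nonneg_left h6 (by positivity : 0 ≤ χ z ^ 4)
        nlinarith
      · rw [chi0 hz]; simp)
  rw [int_univ, int_univ, int_univ] at key
  have tP : Te univ (σ.P v W b) := h.ok.tP sv.contDiffOn sW.contDiffOn hb
  have e1' : ∫ z, (χ z ^ 2 * gf z * σ.F W z + χ z ^ 2 * gf z * |v z| +
      (8 * (Ef z * σ.Γ χ χ z) + 2 * C₂ * (χ z ^ 2 * Ef z ^ 2)) +
      χ z ^ 2 * Ef z ^ 2 / (1 / 4)) * b z ^ 2 ≤
      (3 * C₂ + 5) * (∫ z, χ z ^ 2 * (Ef z ^ 2 * b z ^ 2)) +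
        8 * ∫ z, Ef z * σ.Γ χ χ z * b z ^ 2 := by
    have i1 : Cc fun z => χ z ^ 2 * (Ef z ^ 2 * b z ^ 2) :=
      (cc_sq (sE.continuous.pow 2) hb).mulL (sχ.continuous.pow 2)
    have i2 : Cc fun z => Ef z * σ.Γ χ χ z * b z ^ 2 := cc_sq (sE.continuous.mul cG) hb
    rw [← integral_const_mul, ← integral_const_mul, ← integral_add (i1.cm _).int (i2.cm _).int]
    refine integral_mono (cc_sq ?_ hb).int ((i1.cm _).add (i2.cm _)).int fun z => ?_
    · exact (((((sχ.continuous.pow 2).mul sg.continuous).mul cF).add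
        (((sχ.continuous.pow 2).mul sg.continuous).mul sv.continuous.abs)).add
        ((continuous_const.mul (sE.continuous.mul cG)).add
        (continuous_const.mul ((sχ.continuous.pow 2).mul (sE.continuous.pow 2))))).add
        (((sχ.continuous.pow 2).mul (sE.continuous.pow 2)).div_const _)
    · by_cases hz : z ∈ tsupport χ
      · have h1 := e1 z hz
        have h2 := g0 z hz
        have h5 := g1 z hz
        have h6 := gF z hz
        have h7 := bv z hz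
        have q1 : χ z ^ 2 * gf z * σ.F W z ≤ C₂ * (χ z ^ 2 * Ef z ^ 2) := by
          have := mul_le_mul_of_nonneg_left h6 (sq_nonneg (χ z))
          nlinarith
        have q2 : χ z ^ 2 * gf z * |v z| ≤ χ z ^ 2 * Ef z ^ 2 := by
          have q3 : gf z * |v z| ≤ Ef z * 1 := mul_le_mul h5 h7 (abs_nonneg _) (by linarith)
          have q4 : Ef z * 1 ≤ Ef z ^ 2 := by nlinarith
          have := mul_le_mul_of_nonneg_left (q3.trans q4) (sq_nonneg (χ z))
          nlinarith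
        have q5 : χ z ^ 2 * gf z * σ.F W z + χ z ^ 2 * gf z * |v z| +
            (8 * (Ef z * σ.Γ χ χ z) + 2 * C₂ * (χ z ^ 2 * Ef z ^ 2)) +
            χ z ^ 2 * Ef z ^ 2 / (1 / 4) ≤
            (3 * C₂ + 5) * (χ z ^ 2 * Ef z ^ 2) + 8 * (Ef z * σ.Γ χ χ z) := by
          have : χ z ^ 2 * Ef z ^ 2 / (1 / 4) = 4 * (χ z ^ 2 * Ef z ^ 2) := by ring
          rw [this]; linarith
        have := mul_le_mul_of_nonneg_right q5 (sq_nonneg (b z))
        refine this.trans (le_of_eq ?_)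
        ring
      · rw [chi0 hz, Gchi0 σ hz]
        simp
  have := mul_le_mul_of_nonneg_left e1' hCE
  linarith

/-- The energy of a slot for `m = χ²`. -/
theorem en_1 {CE : ℝ} (hCE : 0 ≤ CE) {σ : Sl (VV n) (Fin n)} {D : Fin n → (VV n → ℝ) → VV n → ℝ}
    (h : Sc σ D) {v W χ b : VV n → ℝ} (hEN : ENs CE σ v W) (sv : ContDiff ℝ ∞ v)
    (sW : ContDiff ℝ ∞ W) (sχ : ContDiff ℝ ∞ χ) (bv : ∀ z ∈ tsupport χ, |v z| ≤ 1)
    (hb : Te univ b) :
    ∫ z, χ z ^ 2 * σ.Γ b b z ≤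
      CE * (2 * (∫ z, χ z ^ 2 * ((σ.F W z + 1) * b z ^ 2)) + 4 * ∫ z, σ.Γ χ χ z * b z ^ 2) +
      ∫ z, χ z ^ 2 * σ.P v W b z ^ 2 := by
  have sG : Sm univ (σ.Γ χ χ) := h.ok.sG sχ.contDiffOn sχ.contDiffOn
  have cG : Continuous (σ.Γ χ χ) := continuousOn_univ.1 sG.continuousOn
  have cF : Continuous (σ.F W) := continuousOn_univ.1 (h.ok.sF sW.contDiffOn).continuousOn
  have key := hEN (fun z => χ z ^ 2) (fun z => 4 * σ.Γ χ χ z)
    (fun z => χ z ^ 2) (fun z => χ z ^ 2) b 1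
    (sχ.pow 2).contDiffOn (contDiffOn_const.mul sG)
    (sχ.pow 2).contDiffOn (sχ.pow 2).contDiffOn hb (by norm_num)
    (fun z _ => by
      have h3 : 0 ≤ σ.Γ χ χ z := h.q0 z _
      refine ⟨by positivity, by positivity, by positivity, by positivity⟩)
    (fun z _ => by
      have e : σ.Γ (fun z => χ z ^ 2) (fun z => χ z ^ 2) z = χ z ^ 2 * (4 * σ.Γ χ χ z) := by
        rw [G_qf]
        have e : (fun i => σ.D i (fun z => χ z ^ 2) z) = fun i => (2 * χ z) * σ.D i χ z := by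
          funext i
          rw [D_sq σ isOpen_univ sχ.contDiffOn i (mem_univ z)]
        rw [e, qf_smul, ← G_qf]
        ring
      exact e.le)
    (fun z _ => le_of_eq (by ring))
  rw [int_univ, int_univ, int_univ] at key
  have e1' : ∫ z, (χ z ^ 2 * σ.F W z + χ z ^ 2 * |v z| + 4 * σ.Γ χ χ z +
      χ z ^ 2 / 1) * b z ^ 2 ≤
      2 * (∫ z, χ z ^ 2 * ((σ.F W z + 1) * b z ^ 2)) + 4 * ∫ z, σ.Γ χ χ z * b z ^ 2 := by
    have i1 : Cc fun z => χ z ^ 2 * ((σ.F W z + 1) * b z ^ 2) :=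
      (cc_sq (cF.add continuous_const) hb).mulL (sχ.continuous.pow 2)
    have i2 : Cc fun z => σ.Γ χ χ z * b z ^ 2 := cc_sq cG hb
    rw [← integral_const_mul, ← integral_const_mul, ← integral_add (i1.cm _).int (i2.cm _).int]
    refine integral_mono (cc_sq ?_ hb).int ((i1.cm _).add (i2.cm _)).int fun z => ?_
    · exact (((((sχ.continuous.pow 2)).mul cF).add
        (((sχ.continuous.pow 2)).mul sv.continuous.abs)).add
        (continuous_const.mul cG)).add ((sχ.continuous.pow 2).div_const _)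
    · by_cases hz : z ∈ tsupport χ
      · have h7 := bv z hz
        have hF : 0 ≤ σ.F W z := h.q0 z _
        have q5 : χ z ^ 2 * σ.F W z + χ z ^ 2 * |v z| + 4 * σ.Γ χ χ z + χ z ^ 2 / 1 ≤
            2 * (χ z ^ 2 * (σ.F W z + 1)) + 4 * σ.Γ χ χ z := by
          have h8 := mul_le_mul_of_nonneg_left h7 (sq_nonneg (χ z))
          have h9 := mul_nonneg (sq_nonneg (χ z)) hF
          have : χ z ^ 2 / 1 = χ z ^ 2 := by ring
          rw [this]; linarith
        have := mul_le_mul_of_nonneg_right q5 (sq_nonneg (b z))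
        refine this.trans (le_of_eq ?_)
        ring
      · rw [chi0 hz, Gchi0 σ hz]
        simp
  have := mul_le_mul_of_nonneg_left e1' hCE
  linarith

end Vale.Agent.P088.R2.H205.CP
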