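import Vale.Agent.P088.R2.H205.C.RIc

/-!
# P088, stage 3, zone C, region I: the five estimates
-/

open MeasureTheory Set
open scoped ContDiff

noncomputable section

namespace Vale.Agent.P088.R2.H205.CP

open Vale.Agent.P088.LR Vale.Agent.P088.HY
open Vale.Agent.P088.R2.H644 Vale.Agent.P088.R2.H961.GW Vale.Agent.P088.R2.H551.E
open Vale.Agent.P088.R2.H960.C

variable {n : ℕ}

/-- The direction of the slope. -/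
def Mν (ν : Fin n → VV n → ℝ) (W : VV n → ℝ) (z : VV n) : ℝ := ∑ i, ν i z * dp i W z

/-- All hypotheses of region I except the cells and the pointwise inequality. -/
structure RD (σ τ : Sl (VV n) (Fin n)) (v₁ v₂ W Ef Kf gf : VV n → ℝ) (ν : Fin n → VV n → ℝ)
    (C₂ A₀ : ℝ) (O : Set (VV n)) (χ : VV n → ℝ) : Prop where
  s : RIs σ τ W Ef Kf gf ν C₂ A₀ O
  sv₁ : ContDiff ℝ ∞ v₁
  sv₂ : ContDiff ℝ ∞ v₂
  bv : ∀ z ∈ O, |v₁ z| ≤ 1 ∧ |v₂ z| ≤ 1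
  sχ : ContDiff ℝ ∞ χ
  O : tsupport χ ⊆ O
  C₂ : 0 < C₂
  A₀ : 1 ≤ A₀

section

variable {σ τ : Sl (VV n) (Fin n)} {v₁ v₂ W Ef Kf gf χ f g b : VV n → ℝ}
  {ν : Fin n → VV n → ℝ} {C₂ A₀ : ℝ} {O : Set (VV n)}

theorem RD.σs (h : RD σ τ v₁ v₂ W Ef Kf gf ν C₂ A₀ O χ) : Sc σ dx :=
  ⟨h.s.oσ, h.s.dσ, fun z ξ => h.s.loσ z ξ, fun z ξ => h.s.upσ z ξ⟩

theorem RD.τs (h : RD σ τ v₁ v₂ W Ef Kf gf ν C₂ A₀ O χ) : Sc τ dy :=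
  ⟨h.s.oτ, h.s.dτ, fun z ξ => h.s.loτ z ξ, fun z ξ => h.s.upτ z ξ⟩

theorem RD.cFσ (h : RD σ τ v₁ v₂ W Ef Kf gf ν C₂ A₀ O χ) : Continuous (σ.F W) :=
  continuousOn_univ.1 (h.s.oσ.sF h.s.sW.contDiffOn).continuousOn

theorem RD.cFτ (h : RD σ τ v₁ v₂ W Ef Kf gf ν C₂ A₀ O χ) : Continuous (τ.F W) :=
  continuousOn_univ.1 (h.s.oτ.sF h.s.sW.contDiffOn).continuousOn

theorem RD.cGσ (h : RD σ τ v₁ v₂ W Ef Kf gf ν C₂ A₀ O χ) : Continuous (σ.Γ χ χ) :=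
  continuousOn_univ.1 (h.s.oσ.sG h.sχ.contDiffOn h.sχ.contDiffOn).continuousOn

theorem RD.cGτ (h : RD σ τ v₁ v₂ W Ef Kf gf ν C₂ A₀ O χ) : Continuous (τ.Γ χ χ) :=
  continuousOn_univ.1 (h.s.oτ.sG h.sχ.contDiffOn h.sχ.contDiffOn).continuousOn

theorem RD.tU (h : RD σ τ v₁ v₂ W Ef Kf gf ν C₂ A₀ O χ) (hf : Te univ f) (i : Fin n) :
    Te univ fun z => Uu W f z i :=
  (Vale.Agent.P088.R2.H960.W.tX h.s.oσ h.s.sW.contDiffOn hf i).congr fun z => by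
    unfold Uu Vale.Agent.P088.R2.H960.W.XX
    rw [h.s.dσ, h.s.dσ]

theorem RD.tV (h : RD σ τ v₁ v₂ W Ef Kf gf ν C₂ A₀ O χ) (hf : Te univ f) (i : Fin n) :
    Te univ fun z => Uv W f z i :=
  (Vale.Agent.P088.R2.H960.W.tX h.s.oτ h.s.sW.contDiffOn hf i).congr fun z => by
    unfold Uv Vale.Agent.P088.R2.H960.W.XX
    rw [h.s.dτ, h.s.dτ]

theorem RD.tsU (h : RD σ τ v₁ v₂ W Ef Kf gf ν C₂ A₀ O χ) (hf : Te univ f) :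
    Te univ fun z => s2 (Uu W f z) :=
  Te.sum isOpen_univ _ fun i _ => (h.tU hf i).sq isOpen_univ

theorem RD.tsV (h : RD σ τ v₁ v₂ W Ef Kf gf ν C₂ A₀ O χ) (hf : Te univ f) :
    Te univ fun z => s2 (Uv W f z) :=
  Te.sum isOpen_univ _ fun i _ => (h.tV hf i).sq isOpen_univ

theorem RD.tsY (h : RD σ τ v₁ v₂ W Ef Kf gf ν C₂ A₀ O χ) (hf : Te univ f) (hg : Te univ g) :
    Te univ fun z => s2 (Uu W f z - Uv W g z) :=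
  Te.sum isOpen_univ _ fun i _ => ((h.tU hf i).sub isOpen_univ (h.tV hg i)).sq isOpen_univ

theorem RD.tP (h : RD σ τ v₁ v₂ W Ef Kf gf ν C₂ A₀ O χ) (hf : Te univ f) (hg : Te univ g) :
    Te univ fun z => (∑ i, ν i z * (Uu W f z i + Uv W g z i)) ^ 2 :=
  (Te.sum isOpen_univ _ fun i _ => ((h.tU hf i).add isOpen_univ (h.tV hg i)).mul_left
    isOpen_univ (h.s.sν i).contDiffOn).sq isOpen_univ

theorem RD.Gσ (h : RD σ τ v₁ v₂ W Ef Kf gf ν C₂ A₀ O χ) (z : VV n) :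
    σ.Γ χ χ z ≤ 4 * (gq χ z + gp χ z) :=
  (h.σs.G2 χ z).trans (by linarith [sx_le χ z])

theorem RD.Gτ (h : RD σ τ v₁ v₂ W Ef Kf gf ν C₂ A₀ O χ) (z : VV n) :
    τ.Γ χ χ z ≤ 4 * (gq χ z + gp χ z) :=
  (h.τs.G2 χ z).trans (by linarith [sy_le χ z])

theorem RD.U2 (h : RD σ τ v₁ v₂ W Ef Kf gf ν C₂ A₀ O χ) (b : VV n → ℝ) (z : VV n) :
    s2 (Uu W b z) ≤ 4 * (σ.F W z * b z ^ 2) + 4 * σ.Γ b b z := by
  have h1 := s2U_le W b z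
  have h2 := h.σs.F2 W z
  have h3 := h.σs.D2 b z
  have h4 := mul_le_mul_of_nonneg_left h2 (sq_nonneg (b z))
  linarith

theorem RD.V2 (h : RD σ τ v₁ v₂ W Ef Kf gf ν C₂ A₀ O χ) (b : VV n → ℝ) (z : VV n) :
    s2 (Uv W b z) ≤ 4 * (τ.F W z * b z ^ 2) + 4 * τ.Γ b b z := by
  have h1 := s2V_le W b z
  have h2 := h.τs.F2 W z
  have h3 := h.τs.D2 b z
  have h4 := mul_le_mul_of_nonneg_left h2 (sq_nonneg (b z))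
  linarith

/-- The integrals. -/
def iA (χ W Ef f g : VV n → ℝ) : ℝ := ∫ z, χ z ^ 2 * (Ef z * s2 (Uu W f z - Uv W g z))

def iB (χ Ef b : VV n → ℝ) : ℝ := ∫ z, χ z ^ 2 * (Ef z ^ 2 * b z ^ 2)

def iW (χ gf M c : VV n → ℝ) : ℝ := ∫ z, χ z ^ 2 * (gf z * M z ^ 2 * c z ^ 2)

def iK (χ Ef Kf c : VV n → ℝ) : ℝ := ∫ z, χ z ^ 2 * (Ef z * Kf z * c z ^ 2)

def iP (χ W Kf : VV n → ℝ) (ν : Fin n → VV n → ℝ) (f g : VV n → ℝ) : ℝ :=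
  ∫ z, χ z ^ 2 * (Kf z * (∑ i, ν i z * (Uu W f z i + Uv W g z i)) ^ 2)

def iS (σ τ : Sl (VV n) (Fin n)) (v₁ v₂ W χ f g : VV n → ℝ) : ℝ :=
  ∫ z, χ z ^ 2 * sqd σ τ v₁ v₂ W f g z

def iT (σ τ : Sl (VV n) (Fin n)) (v₁ v₂ W χ f g : VV n → ℝ) : ℝ :=
  ∫ z, χ z ^ 2 * sta σ τ v₁ v₂ W f g z

/-- The cost of the cut-off. -/
def iX (χ Ef b c : VV n → ℝ) : ℝ :=
  ∫ z, (Ef z * (gq χ z + gp χ z) * b z ^ 2 + (Ef z * gp χ z + (gq χ z + gp χ z)) * c z ^ 2)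

def iE (χ W gf b : VV n → ℝ) : ℝ := ∫ z, χ z ^ 2 * (gf z * (s2 (Uu W b z) + s2 (Uv W b z)))

/-- The unit density. -/
def zd (σ τ : Sl (VV n) (Fin n)) (W f g : VV n → ℝ) (z : VV n) : ℝ :=
  s2 (Uu W f z) + s2 (Uv W g z) + (σ.F W z + τ.F W z + 1) * (f z ^ 2 + g z ^ 2)

def iZ (σ τ : Sl (VV n) (Fin n)) (W χ f g : VV n → ℝ) : ℝ := ∫ z, χ z ^ 2 * zd σ τ W f g z

/-! ## Integrability -/

theorem RD.ccA (h : RD σ τ v₁ v₂ W Ef Kf gf ν C₂ A₀ O χ) (hf : Te univ f) (hg : Te univ g) :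
    Cc fun z => χ z ^ 2 * (Ef z * s2 (Uu W f z - Uv W g z)) :=
  ((Te.cc (h.tsY hf hg)).mulL h.s.sE.continuous).mulL (h.sχ.continuous.pow 2)

theorem RD.ccB (h : RD σ τ v₁ v₂ W Ef Kf gf ν C₂ A₀ O χ) (hb : Te univ b) :
    Cc fun z => χ z ^ 2 * (Ef z ^ 2 * b z ^ 2) :=
  (cc_sq (h.s.sE.continuous.pow 2) hb).mulL (h.sχ.continuous.pow 2)

theorem RD.cM (h : RD σ τ v₁ v₂ W Ef Kf gf ν C₂ A₀ O χ) : Continuous (Mν ν W) :=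
  continuous_finsetSum _ fun i _ => (h.s.sν i).continuous.mul
    ((c_dx h.s.sW i).add (c_dy h.s.sW i))

theorem RD.ccW (h : RD σ τ v₁ v₂ W Ef Kf gf ν C₂ A₀ O χ) (hb : Te univ b) :
    Cc fun z => χ z ^ 2 * (gf z * Mν ν W z ^ 2 * b z ^ 2) :=
  (cc_sq (h.s.sg.continuous.mul (h.cM.pow 2)) hb).mulL (h.sχ.continuous.pow 2)

theorem RD.ccK (h : RD σ τ v₁ v₂ W Ef Kf gf ν C₂ A₀ O χ) (hb : Te univ b) :
    Cc fun z => χ z ^ 2 * (Ef z * Kf z * b z ^ 2) :=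
  (cc_sq (h.s.sE.continuous.mul h.s.sK) hb).mulL (h.sχ.continuous.pow 2)

theorem RD.ccP (h : RD σ τ v₁ v₂ W Ef Kf gf ν C₂ A₀ O χ) (hf : Te univ f) (hg : Te univ g) :
    Cc fun z => χ z ^ 2 * (Kf z * (∑ i, ν i z * (Uu W f z i + Uv W g z i)) ^ 2) :=
  ((Te.cc (h.tP hf hg)).mulL h.s.sK).mulL (h.sχ.continuous.pow 2)

theorem RD.ccS (h : RD σ τ v₁ v₂ W Ef Kf gf ν C₂ A₀ O χ) (hf : Te univ f) (hg : Te univ g) :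
    Cc fun z => χ z ^ 2 * sqd σ τ v₁ v₂ W f g z :=
  (Te.cc (tsqd h.s.oσ h.s.oτ h.sv₁.contDiffOn h.sv₂.contDiffOn h.s.sW.contDiffOn hf hg)).mulL
    (h.sχ.continuous.pow 2)

theorem RD.ccT (h : RD σ τ v₁ v₂ W Ef Kf gf ν C₂ A₀ O χ) (hf : Te univ f) (hg : Te univ g) :
    Cc fun z => χ z ^ 2 * sta σ τ v₁ v₂ W f g z :=
  (Te.cc (tsta h.s.oσ h.s.oτ h.sv₁.contDiffOn h.sv₂.contDiffOn h.s.sW.contDiffOn hf hg)).mulL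
    (h.sχ.continuous.pow 2)

theorem RD.ccX (h : RD σ τ v₁ v₂ W Ef Kf gf ν C₂ A₀ O χ) {b c : VV n → ℝ} (hb : Te univ b)
    (hc : Te univ c) : Cc fun z => Ef z * (gq χ z + gp χ z) * b z ^ 2 +
      (Ef z * gp χ z + (gq χ z + gp χ z)) * c z ^ 2 := by
  have h1 := c_gq h.sχ
  have h2 := c_gp h.sχ
  have h3 := h.s.sE.continuous
  exact (cc_sq (h3.mul (h1.add h2)) hb).add (cc_sq ((h3.mul h2).add (h1.add h2)) hc)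

theorem RD.ccE (h : RD σ τ v₁ v₂ W Ef Kf gf ν C₂ A₀ O χ) (hb : Te univ b) :
    Cc fun z => χ z ^ 2 * (gf z * (s2 (Uu W b z) + s2 (Uv W b z))) :=
  ((Te.cc ((h.tsU hb).add isOpen_univ (h.tsV hb))).mulL h.s.sg.continuous).mulL
    (h.sχ.continuous.pow 2)

theorem RD.ccZ (h : RD σ τ v₁ v₂ W Ef Kf gf ν C₂ A₀ O χ) (hf : Te univ f) (hg : Te univ g) :
    Cc fun z => χ z ^ 2 * zd σ τ W f g z := by
  have h1 := Te.cc ((h.tsU hf).add isOpen_univ (h.tsV hg))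
  have h2 := Te.cc ((hf.sq isOpen_univ).add isOpen_univ (hg.sq isOpen_univ))
  exact (h1.add (h2.mulL ((h.cFσ.add h.cFτ).add continuous_const))).mulL (h.sχ.continuous.pow 2)

end

end Vale.Agent.P088.R2.H205.CP
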