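import Vale.Agent.P088.R2.H205.C.RId

/-!
# P088, stage 3, zone C, region I: the five estimates (2)
-/

open MeasureTheory Set
open scoped ContDiff

noncomputable section

namespace Vale.Agent.P088.R2.H205.CP

open Vale.Agent.P088.LR Vale.Agent.P088.HY
open Vale.Agent.P088.R2.H644 Vale.Agent.P088.R2.H961.GW Vale.Agent.P088.R2.H551.E
open Vale.Agent.P088.R2.H960.C

variable {n : ℕ}

section

variable {σ τ : Sl (VV n) (Fin n)} {v₁ v₂ W Ef Kf gf χ f g b c : VV n → ℝ}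
  {ν : Fin n → VV n → ℝ} {C₂ A₀ : ℝ} {O : Set (VV n)}

theorem RD.Wc_nn (h : RD σ τ v₁ v₂ W Ef Kf gf ν C₂ A₀ O χ) (c : VV n → ℝ) :
    0 ≤ iW χ gf (Mν ν W) c := by
  refine integral_nonneg fun z => ?_
  by_cases hz : z ∈ tsupport χ
  · have := h.s.g0 z (h.O hz)
    show 0 ≤ χ z ^ 2 * (gf z * Mν ν W z ^ 2 * c z ^ 2)
    positivity
  · show 0 ≤ χ z ^ 2 * (gf z * Mν ν W z ^ 2 * c z ^ 2)
    rw [chi0 hz]; simp

theorem RD.A_nn (h : RD σ τ v₁ v₂ W Ef Kf gf ν C₂ A₀ O χ) (f g : VV n → ℝ) :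
    0 ≤ iA χ W Ef f g :=
  integral_nonneg fun z => mul_nonneg (sq_nonneg _) (mul_nonneg (h.s.E0 z).le (s2_nn _))

theorem iB_nn (χ Ef b : VV n → ℝ) : 0 ≤ iB χ Ef b :=
  integral_nonneg fun z => by
    show 0 ≤ χ z ^ 2 * (Ef z ^ 2 * b z ^ 2)
    positivity

theorem RD.K_nn (h : RD σ τ v₁ v₂ W Ef Kf gf ν C₂ A₀ O χ) (c : VV n → ℝ) :
    0 ≤ iK χ Ef Kf c := by
  refine integral_nonneg fun z => ?_
  show 0 ≤ χ z ^ 2 * (Ef z * Kf z * c z ^ 2)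
  by_cases hz : z ∈ tsupport χ
  · have h1 := h.s.k0 z (h.O hz)
    have h2 := h.s.E0 z
    positivity
  · rw [chi0 hz]; simp

theorem RD.P_nn (h : RD σ τ v₁ v₂ W Ef Kf gf ν C₂ A₀ O χ) (f g : VV n → ℝ) :
    0 ≤ iP χ W Kf ν f g := by
  refine integral_nonneg fun z => ?_
  show 0 ≤ χ z ^ 2 * (Kf z * (∑ i, ν i z * (Uu W f z i + Uv W g z i)) ^ 2)
  by_cases hz : z ∈ tsupport χ
  · have h1 := h.s.k0 z (h.O hz)
    positivity
  · rw [chi0 hz]; simp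

theorem iS_nn (σ τ : Sl (VV n) (Fin n)) (v₁ v₂ W χ f g : VV n → ℝ) :
    0 ≤ iS σ τ v₁ v₂ W χ f g :=
  integral_nonneg fun z => mul_nonneg (sq_nonneg _) (sqd_nonneg σ τ v₁ v₂ W f g z)

theorem RD.X_nn (h : RD σ τ v₁ v₂ W Ef Kf gf ν C₂ A₀ O χ) (b c : VV n → ℝ) :
    0 ≤ iX χ Ef b c := by
  refine integral_nonneg fun z => ?_
  show 0 ≤ Ef z * (gq χ z + gp χ z) * b z ^ 2 +
    (Ef z * gp χ z + (gq χ z + gp χ z)) * c z ^ 2
  have h1 := gq_nn χ z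
  have h2 := gp_nn χ z
  have h3 := h.s.E0 z
  positivity

/-- `E (gq + gp) b²` is a part of the cost. -/
theorem RD.X1 (h : RD σ τ v₁ v₂ W Ef Kf gf ν C₂ A₀ O χ) (hb : Te univ b) (hc : Te univ c) :
    ∫ z, Ef z * (gq χ z + gp χ z) * b z ^ 2 ≤ iX χ Ef b c := by
  have h1 := c_gq h.sχ
  have h2 := c_gp h.sχ
  refine integral_mono (cc_sq (h.s.sE.continuous.mul (h1.add h2)) hb).int (h.ccX hb hc).int
    fun z => ?_
  have h1 := gq_nn χ z
  have h2 := gp_nn χ z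
  have h3 := h.s.E0 z
  have : 0 ≤ (Ef z * gp χ z + (gq χ z + gp χ z)) * c z ^ 2 := by positivity
  linarith

/-- **(4)** the energy of `b`. -/
theorem RD.est4 (h : RD σ τ v₁ v₂ W Ef Kf gf ν C₂ A₀ O χ) {CE : ℝ} (hCE : 0 < CE)
    (e₁ : ENs CE σ v₁ W) (e₂ : ENs CE τ v₂ W) (hf : Te univ f) (hg : Te univ g) :
    iE χ W gf (hb f g) ≤ (8 * C₂ + 8 * CE * (6 * C₂ + 5)) * iB χ Ef (hb f g) +
      1 / 2 * iS σ τ v₁ v₂ W χ f g + 256 * CE * iX χ Ef (hb f g) (hd f g) := by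
  have tb : Te univ (hb f g) := Te.hb hf hg
  have tc : Te univ (hd f g) := Te.hd hf hg
  have C2 := h.C₂
  have a1 := en_b hCE.le h.σs (C₂ := 2 * C₂) (by positivity) e₁ h.sv₁ h.s.sW h.s.sE h.s.sg h.sχ
    (fun z hz => h.s.e1 z (h.O hz)) (fun z hz => h.s.g0 z (h.O hz))
    (fun z hz => h.s.g1 z (h.O hz)) (fun z hz => (h.bv z (h.O hz)).1)
    (fun z hz => ((h.s.gF z (h.O hz)).1).trans (by nlinarith [sq_nonneg (Ef z)]))
    (fun z hz => by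
      have q1 := h.s.gG z (h.O hz)
      have q2 := h.σs.G2 gf z
      have q3 : 0 ≤ ∑ i, dy i gf z ^ 2 := Finset.sum_nonneg fun _ _ => sq_nonneg _
      linarith) tb
  have a2 := en_b hCE.le h.τs (C₂ := 2 * C₂) (by positivity) e₂ h.sv₂ h.s.sW h.s.sE h.s.sg h.sχ
    (fun z hz => h.s.e1 z (h.O hz)) (fun z hz => h.s.g0 z (h.O hz))
    (fun z hz => h.s.g1 z (h.O hz)) (fun z hz => (h.bv z (h.O hz)).2)
    (fun z hz => ((h.s.gF z (h.O hz)).2).trans (by nlinarith [sq_nonneg (Ef z)]))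
    (fun z hz => by
      have q1 := h.s.gG z (h.O hz)
      have q2 := h.τs.G2 gf z
      have q3 : 0 ≤ ∑ i, dx i gf z ^ 2 := Finset.sum_nonneg fun _ _ => sq_nonneg _
      linarith) tb
  -- the gradient of the cut-off
  have cG : ∀ {s : Sl (VV n) (Fin n)}, Continuous (s.Γ χ χ) →
      (∀ z, s.Γ χ χ z ≤ 4 * (gq χ z + gp χ z)) →
      ∫ z, Ef z * s.Γ χ χ z * hb f g z ^ 2 ≤ 4 * iX χ Ef (hb f g) (hd f g) := by
    intro s cs hs
    have i1 : Cc fun z => Ef z * s.Γ χ χ z * hb f g z ^ 2 :=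
      cc_sq (h.s.sE.continuous.mul cs) tb
    have i2 : Cc fun z => Ef z * (gq χ z + gp χ z) * hb f g z ^ 2 :=
      cc_sq (h.s.sE.continuous.mul ((c_gq h.sχ).add (c_gp h.sχ))) tb
    have h5 : ∫ z, Ef z * s.Γ χ χ z * hb f g z ^ 2 ≤
        4 * ∫ z, Ef z * (gq χ z + gp χ z) * hb f g z ^ 2 := by
      rw [← integral_const_mul]
      refine integral_mono i1.int (i2.cm 4).int fun z => ?_
      have q1 := mul_le_mul_of_nonneg_right (mul_le_mul_of_nonneg_left (hs z) (h.s.E0 z).le)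
        (sq_nonneg (hb f g z))
      refine q1.trans (le_of_eq ?_)
      ring
    have := h.X1 tb tc
    linarith
  have g1 := cG h.cGσ h.Gσ
  have g2 := cG h.cGτ h.Gτ
  -- the squares
  have sq : (∫ z, χ z ^ 2 * σ.P v₁ W (hb f g) z ^ 2) + (∫ z, χ z ^ 2 * τ.P v₂ W (hb f g) z ^ 2) ≤
      1 / 2 * iS σ τ v₁ v₂ W χ f g := by
    have t1 : Te univ (σ.P v₁ W (hb f g)) :=
      h.s.oσ.tP h.sv₁.contDiffOn h.s.sW.contDiffOn tb
    have t2 : Te univ (τ.P v₂ W (hb f g)) :=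
      h.s.oτ.tP h.sv₂.contDiffOn h.s.sW.contDiffOn tb
    have i1 : Cc fun z => χ z ^ 2 * σ.P v₁ W (hb f g) z ^ 2 := cc_sq (h.sχ.continuous.pow 2) t1
    have i2 : Cc fun z => χ z ^ 2 * τ.P v₂ W (hb f g) z ^ 2 := cc_sq (h.sχ.continuous.pow 2) t2
    unfold iS
    rw [← integral_const_mul, ← integral_add i1.int i2.int]
    refine integral_mono (i1.add i2).int ((h.ccS hf hg).cm _).int fun z => ?_
    show χ z ^ 2 * σ.P v₁ W (hb f g) z ^ 2 + χ z ^ 2 * τ.P v₂ W (hb f g) z ^ 2 ≤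
      1 / 2 * (χ z ^ 2 * sqd σ τ v₁ v₂ W f g z)
    rw [P_hb h.s.oσ h.s.sW hf.1 hg.1, P_hb h.s.oτ h.s.sW hf.1 hg.1]
    unfold sqd
    have q1 : ((σ.P v₁ W f z + σ.P v₁ W g z) / 2) ^ 2 ≤
        1 / 2 * (σ.P v₁ W f z ^ 2 + σ.P v₁ W g z ^ 2) := by
      nlinarith [sq_nonneg (σ.P v₁ W f z - σ.P v₁ W g z)]
    have q2 : ((τ.P v₂ W f z + τ.P v₂ W g z) / 2) ^ 2 ≤
        1 / 2 * (τ.P v₂ W f z ^ 2 + τ.P v₂ W g z ^ 2) := by
      nlinarith [sq_nonneg (τ.P v₂ W f z - τ.P v₂ W g z)]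
    have q3 := mul_le_mul_of_nonneg_left (add_le_add q1 q2) (sq_nonneg (χ z))
    linarith
  -- the vectors
  have i3 : Cc fun z => χ z ^ 2 * gf z * σ.Γ (hb f g) (hb f g) z :=
    (Te.cc (h.s.oσ.tG tb.sm tb)).mulL ((h.sχ.continuous.pow 2).mul h.s.sg.continuous)
  have i4 : Cc fun z => χ z ^ 2 * gf z * τ.Γ (hb f g) (hb f g) z :=
    (Te.cc (h.s.oτ.tG tb.sm tb)).mulL ((h.sχ.continuous.pow 2).mul h.s.sg.continuous)
  have v : iE χ W gf (hb f g) ≤ 8 * C₂ * iB χ Ef (hb f g) +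
      (4 * (∫ z, χ z ^ 2 * gf z * σ.Γ (hb f g) (hb f g) z) +
      4 * ∫ z, χ z ^ 2 * gf z * τ.Γ (hb f g) (hb f g) z) := by
    unfold iE iB
    rw [← integral_const_mul, ← integral_const_mul, ← integral_const_mul,
      ← integral_add (i3.cm 4).int (i4.cm 4).int,
      ← integral_add ((h.ccB tb).cm _).int ((i3.cm 4).add (i4.cm 4)).int]
    refine integral_mono (h.ccE tb).int (((h.ccB tb).cm _).add ((i3.cm 4).add (i4.cm 4))).int
      fun z => ?_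
    by_cases hz : z ∈ tsupport χ
    · have q0 := h.s.g0 z (h.O hz)
      have q1 := mul_le_mul_of_nonneg_left (h.U2 (hb f g) z) q0
      have q2 := mul_le_mul_of_nonneg_left (h.V2 (hb f g) z) q0
      obtain ⟨q3, q4⟩ := h.s.gF z (h.O hz)
      have q5 := mul_le_mul_of_nonneg_right q3 (sq_nonneg (hb f g z))
      have q6 := mul_le_mul_of_nonneg_right q4 (sq_nonneg (hb f g z))
      have q7 : gf z * (s2 (Uu W (hb f g) z) + s2 (Uv W (hb f g) z)) ≤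
          8 * C₂ * (Ef z ^ 2 * hb f g z ^ 2) + 4 * (gf z * σ.Γ (hb f g) (hb f g) z) +
          4 * (gf z * τ.Γ (hb f g) (hb f g) z) := by linarith
      have q8 := mul_le_mul_of_nonneg_left q7 (sq_nonneg (χ z))
      refine q8.trans (le_of_eq ?_)
      ring
    · show χ z ^ 2 * _ ≤ _
      simp only [chi0 hz]
      simp
  have x0 := h.X_nn (hb f g) (hd f g)
  have b1 := mul_le_mul_of_nonneg_left g1 (by positivity : 0 ≤ 8 * CE)
  have b2 := mul_le_mul_of_nonneg_left g2 (by positivity : 0 ≤ 8 * CE)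
  unfold iB at *
  nlinarith [a1, a2, v, sq, b1, b2, x0]

end

end Vale.Agent.P088.R2.H205.CP
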