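import Vale.Agent.P088.R2.H205.C.RIe

/-!
# P088, stage 3, zone C, region I: the five estimates (3)
-/

open MeasureTheory Set
open scoped ContDiff

noncomputable section

namespace Vale.Agent.P088.R2.H205.CP

open Vale.Agent.P088.LR Vale.Agent.P088.HY
open Vale.Agent.P088.R2.H644 Vale.Agent.P088.R2.H961.GW Vale.Agent.P088.R2.H551.E
open Vale.Agent.P088.R2.H960.C

variable {n : ℕ}

theorem dx_m {χ g : VV n → ℝ} {z : VV n} (hχ : DifferentiableAt ℝ χ z)
    (hg : DifferentiableAt ℝ g z) (i : Fin n) :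
    dx i (fun z => χ z ^ 2 * g z) z = 2 * χ z * g z * dx i χ z + χ z ^ 2 * dx i g z := by
  have e := ((hχ.hasFDerivAt.pow 2).mul hg.hasFDerivAt).fderiv
  unfold dx
  have e2 : (fun z => χ z ^ 2 * g z) = (fun z => χ z ^ 2) * g := rfl
  rw [e2, e]
  simp only [_root_.add_apply, _root_.smul_apply, smul_eq_mul]
  norm_num
  ring

theorem dy_m {χ g : VV n → ℝ} {z : VV n} (hχ : DifferentiableAt ℝ χ z)
    (hg : DifferentiableAt ℝ g z) (i : Fin n) :
    dy i (fun z => χ z ^ 2 * g z) z = 2 * χ z * g z * dy i χ z + χ z ^ 2 * dy i g z := by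
  have e := ((hχ.hasFDerivAt.pow 2).mul hg.hasFDerivAt).fderiv
  unfold dy
  have e2 : (fun z => χ z ^ 2 * g z) = (fun z => χ z ^ 2) * g := rfl
  rw [e2, e]
  simp only [_root_.add_apply, _root_.smul_apply, smul_eq_mul]
  norm_num
  ring

theorem dp_m {χ g : VV n → ℝ} {z : VV n} (hχ : DifferentiableAt ℝ χ z)
    (hg : DifferentiableAt ℝ g z) (i : Fin n) :
    dp i (fun z => χ z ^ 2 * g z) z = 2 * χ z * g z * dp i χ z + χ z ^ 2 * dp i g z := by
  unfold dp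
  rw [dx_m hχ hg, dy_m hχ hg]
  ring

section

variable {σ τ : Sl (VV n) (Fin n)} {v₁ v₂ W Ef Kf gf χ f g b c : VV n → ℝ}
  {ν : Fin n → VV n → ℝ} {C₂ A₀ : ℝ} {O : Set (VV n)}

theorem fg_bc (f g : VV n → ℝ) (z : VV n) :
    f z ^ 2 + g z ^ 2 = 2 * (hb f g z ^ 2 + hd f g z ^ 2) := by
  unfold hb hd; ring

/-- **(6)** the unit density. -/
theorem RD.est6 (h : RD σ τ v₁ v₂ W Ef Kf gf ν C₂ A₀ O χ) {CE : ℝ} (hCE : 0 < CE)
    (e₁ : ENs CE σ v₁ W) (e₂ : ENs CE τ v₂ W) (hf : Te univ f) (hg : Te univ g) :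
    iZ σ τ W χ f g ≤ (10 + 128 * CE) * (iB χ Ef (hb f g) + iW χ gf (Mν ν W) (hd f g) +
      iS σ τ v₁ v₂ W χ f g + iX χ Ef (hb f g) (hd f g)) := by
  have tb : Te univ (hb f g) := Te.hb hf hg
  have tc : Te univ (hd f g) := Te.hd hf hg
  have a1 := en_1 hCE.le h.σs e₁ h.sv₁ h.s.sW h.sχ (fun z hz => (h.bv z (h.O hz)).1) hf
  have a2 := en_1 hCE.le h.τs e₂ h.sv₂ h.s.sW h.sχ (fun z hz => (h.bv z (h.O hz)).2) hg
  have cχ := h.sχ.continuous.pow 2
  -- all integrands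
  have tF2 : Te univ fun z => f z ^ 2 + g z ^ 2 := (hf.sq isOpen_univ).add isOpen_univ
    (hg.sq isOpen_univ)
  have iF : Cc fun z => χ z ^ 2 * ((σ.F W z + τ.F W z + 1) * (f z ^ 2 + g z ^ 2)) :=
    ((Te.cc tF2).mulL ((h.cFσ.add h.cFτ).add continuous_const)).mulL cχ
  have i1 : Cc fun z => χ z ^ 2 * ((σ.F W z + 1) * f z ^ 2) :=
    (cc_sq (h.cFσ.add continuous_const) hf).mulL cχ
  have i2 : Cc fun z => χ z ^ 2 * ((τ.F W z + 1) * g z ^ 2) :=
    (cc_sq (h.cFτ.add continuous_const) hg).mulL cχ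
  have i3 : Cc fun z => σ.Γ χ χ z * f z ^ 2 := cc_sq h.cGσ hf
  have i4 : Cc fun z => τ.Γ χ χ z * g z ^ 2 := cc_sq h.cGτ hg
  have i5 : Cc fun z => χ z ^ 2 * σ.Γ f f z := (Te.cc (h.s.oσ.tG hf.sm hf)).mulL cχ
  have i6 : Cc fun z => χ z ^ 2 * τ.Γ g g z := (Te.cc (h.s.oτ.tG hg.sm hg)).mulL cχ
  have i7 : Cc fun z => χ z ^ 2 * σ.P v₁ W f z ^ 2 :=
    cc_sq cχ (h.s.oσ.tP h.sv₁.contDiffOn h.s.sW.contDiffOn hf)
  have i8 : Cc fun z => χ z ^ 2 * τ.P v₂ W g z ^ 2 :=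
    cc_sq cχ (h.s.oτ.tP h.sv₂.contDiffOn h.s.sW.contDiffOn hg)
  have F0 : ∀ z, 0 ≤ σ.F W z := fun z => h.σs.q0 z _
  have F0' : ∀ z, 0 ≤ τ.F W z := fun z => h.τs.q0 z _
  have b0 : iZ σ τ W χ f g ≤
      5 * (∫ z, χ z ^ 2 * ((σ.F W z + τ.F W z + 1) * (f z ^ 2 + g z ^ 2))) +
      (4 * (∫ z, χ z ^ 2 * σ.Γ f f z) + 4 * ∫ z, χ z ^ 2 * τ.Γ g g z) := by
    unfold iZ
    rw [← integral_const_mul, ← integral_const_mul, ← integral_const_mul,
      ← integral_add (i5.cm 4).int (i6.cm 4).int,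
      ← integral_add (iF.cm 5).int ((i5.cm 4).add (i6.cm 4)).int]
    refine integral_mono (h.ccZ hf hg).int ((iF.cm 5).add ((i5.cm 4).add (i6.cm 4))).int
      fun z => ?_
    have q1 := h.U2 f z
    have q2 := h.V2 g z
    have q3 := mul_nonneg (F0 z) (sq_nonneg (g z))
    have q4 := mul_nonneg (F0' z) (sq_nonneg (f z))
    have q5 : zd σ τ W f g z ≤ 5 * ((σ.F W z + τ.F W z + 1) * (f z ^ 2 + g z ^ 2)) +
        (4 * σ.Γ f f z + 4 * τ.Γ g g z) := by
      unfold zd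
      have q6 := sq_nonneg (f z)
      have q7 := sq_nonneg (g z)
      linarith
    have q8 := mul_le_mul_of_nonneg_left q5 (sq_nonneg (χ z))
    refine q8.trans (le_of_eq ?_)
    ring
  have b1 : (∫ z, χ z ^ 2 * ((σ.F W z + 1) * f z ^ 2)) +
      (∫ z, χ z ^ 2 * ((τ.F W z + 1) * g z ^ 2)) ≤
      ∫ z, χ z ^ 2 * ((σ.F W z + τ.F W z + 1) * (f z ^ 2 + g z ^ 2)) := by
    rw [← integral_add i1.int i2.int]
    refine integral_mono (i1.add i2).int iF.int fun z => ?_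
    have q3 := mul_nonneg (F0 z) (sq_nonneg (g z))
    have q4 := mul_nonneg (F0' z) (sq_nonneg (f z))
    have q5 : (σ.F W z + 1) * f z ^ 2 + (τ.F W z + 1) * g z ^ 2 ≤
        (σ.F W z + τ.F W z + 1) * (f z ^ 2 + g z ^ 2) := by nlinarith
    have q8 := mul_le_mul_of_nonneg_left q5 (sq_nonneg (χ z))
    refine le_trans (le_of_eq ?_) q8
    ring
  have b2 : (∫ z, χ z ^ 2 * ((σ.F W z + τ.F W z + 1) * (f z ^ 2 + g z ^ 2))) ≤
      2 * (iB χ Ef (hb f g) + iW χ gf (Mν ν W) (hd f g)) := by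
    unfold iB iW
    rw [← integral_add (h.ccB tb).int (h.ccW tc).int, ← integral_const_mul]
    refine integral_mono iF.int (((h.ccB tb).add (h.ccW tc)).cm 2).int fun z => ?_
    by_cases hz : z ∈ tsupport χ
    · have q1 := h.s.aF z (h.O hz)
      have q2 := h.s.aE z (h.O hz)
      have q0 : 0 ≤ σ.F W z + τ.F W z + 1 := by linarith [F0 z, F0' z]
      have q3 := mul_le_mul_of_nonneg_right h.A₀ q0
      have q4 := mul_le_mul_of_nonneg_right ((by linarith : σ.F W z + τ.F W z + 1 ≤ Ef z ^ 2))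
        (sq_nonneg (hb f g z))
      have q5 := mul_le_mul_of_nonneg_right ((by unfold Mν; linarith :
        σ.F W z + τ.F W z + 1 ≤ gf z * Mν ν W z ^ 2)) (sq_nonneg (hd f g z))
      have q6 : (σ.F W z + τ.F W z + 1) * (f z ^ 2 + g z ^ 2) ≤
          2 * (Ef z ^ 2 * hb f g z ^ 2 + gf z * Mν ν W z ^ 2 * hd f g z ^ 2) := by
        rw [fg_bc f g z]
        linarith
      have q8 := mul_le_mul_of_nonneg_left q6 (sq_nonneg (χ z))
      refine q8.trans (le_of_eq ?_)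
      ring
    · show χ z ^ 2 * _ ≤ _
      simp only [chi0 hz]
      simp
  have b3 : (∫ z, σ.Γ χ χ z * f z ^ 2) + (∫ z, τ.Γ χ χ z * g z ^ 2) ≤
      8 * iX χ Ef (hb f g) (hd f g) := by
    unfold iX
    rw [← integral_add i3.int i4.int, ← integral_const_mul]
    refine integral_mono (i3.add i4).int ((h.ccX tb tc).cm 8).int fun z => ?_
    by_cases hz : z ∈ tsupport χ
    · have q1 := mul_le_mul_of_nonneg_right (h.Gσ z) (sq_nonneg (f z))
      have q2 := mul_le_mul_of_nonneg_right (h.Gτ z) (sq_nonneg (g z))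
      have q3 := h.s.e1 z (h.O hz)
      have q4 := gq_nn χ z
      have q5 := gp_nn χ z
      have q6 : 4 * (gq χ z + gp χ z) * f z ^ 2 + 4 * (gq χ z + gp χ z) * g z ^ 2 =
          8 * ((gq χ z + gp χ z) * hb f g z ^ 2 + (gq χ z + gp χ z) * hd f g z ^ 2) := by
        have := fg_bc f g z
        calc 4 * (gq χ z + gp χ z) * f z ^ 2 + 4 * (gq χ z + gp χ z) * g z ^ 2
            = 4 * (gq χ z + gp χ z) * (f z ^ 2 + g z ^ 2) := by ring
          _ = _ := by rw [this]; ring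
      have q7 : (gq χ z + gp χ z) * hb f g z ^ 2 ≤
          Ef z * (gq χ z + gp χ z) * hb f g z ^ 2 := by
        have : 0 ≤ (Ef z - 1) * ((gq χ z + gp χ z) * hb f g z ^ 2) :=
          mul_nonneg (by linarith) (by positivity)
        linarith
      have q8 : (gq χ z + gp χ z) * hd f g z ^ 2 ≤
          (Ef z * gp χ z + (gq χ z + gp χ z)) * hd f g z ^ 2 := by
        have : 0 ≤ Ef z * gp χ z * hd f g z ^ 2 :=
          mul_nonneg (mul_nonneg (by linarith) q5) (sq_nonneg _)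
        linarith
      show σ.Γ χ χ z * f z ^ 2 + τ.Γ χ χ z * g z ^ 2 ≤ _
      linarith
    · show σ.Γ χ χ z * f z ^ 2 + τ.Γ χ χ z * g z ^ 2 ≤ _
      rw [Gchi0 σ hz, Gchi0 τ hz, gq0 hz, gp0 hz]
      simp
  have b4 : (∫ z, χ z ^ 2 * σ.P v₁ W f z ^ 2) + (∫ z, χ z ^ 2 * τ.P v₂ W g z ^ 2) ≤
      iS σ τ v₁ v₂ W χ f g := by
    unfold iS
    rw [← integral_add i7.int i8.int]
    refine integral_mono (i7.add i8).int (h.ccS hf hg).int fun z => ?_
    show χ z ^ 2 * σ.P v₁ W f z ^ 2 + χ z ^ 2 * τ.P v₂ W g z ^ 2 ≤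
      χ z ^ 2 * sqd σ τ v₁ v₂ W f g z
    unfold sqd
    have q1 := mul_nonneg (sq_nonneg (χ z)) (sq_nonneg (τ.P v₂ W f z))
    have q2 := mul_nonneg (sq_nonneg (χ z)) (sq_nonneg (σ.P v₁ W g z))
    linarith
  have B0 := iB_nn χ Ef (hb f g)
  have W0 := h.Wc_nn (hd f g)
  have S0 := iS_nn σ τ v₁ v₂ W χ f g
  have X0 := h.X_nn (hb f g) (hd f g)
  have c1 := mul_le_mul_of_nonneg_left b1 (by positivity : 0 ≤ 8 * CE)
  have c2 := mul_le_mul_of_nonneg_left b2 (by positivity : 0 ≤ 5 + 8 * CE)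
  have c3 := mul_le_mul_of_nonneg_left b3 (by positivity : 0 ≤ 16 * CE)
  have c4 : 0 ≤ CE * iB χ Ef (hb f g) := by positivity
  have c5 : 0 ≤ CE * iW χ gf (Mν ν W) (hd f g) := by positivity
  have c6 : 0 ≤ CE * iS σ τ v₁ v₂ W χ f g := by positivity
  linarith

/-- **(3)** one direction. -/
theorem RD.est3 (h : RD σ τ v₁ v₂ W Ef Kf gf ν C₂ A₀ O χ) {C0 : ℝ} (hC0 : 0 < C0)
    (hCM : ∀ (W m h M f g : VV n → ℝ) (ν : Fin n → VV n → ℝ), ContDiff ℝ ∞ W → ContDiff ℝ ∞ m →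
      (∀ z, 0 ≤ m z) → (∀ i, ContDiff ℝ ∞ (ν i)) → (∀ z, M z = ∑ i, ν i z * dp i W z) →
      (∀ z ∈ tsupport m, ∑ i, ν i z ^ 2 ≤ 1) →
      (∀ z, (∑ i, ν i z * dp i m z) ^ 2 ≤ m z * h z) → Continuous h → (∀ z, 0 ≤ h z) →
      (∀ z ∈ tsupport m, |(∑ i, ∑ j, ν i z * dp i (ν j) z * dp j W z) +
        (∑ i, ∑ j, ν i z * ν j z * dp i (dp j W) z)| ≤ M z ^ 2 / 8) →
      (∀ z ∈ tsupport m, |∑ i, dp i (ν i) z| ≤ |M z| / 8) →
      Te univ f → Te univ g →
      ∫ z, m z * M z ^ 2 * hd f g z ^ 2 ≤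
        C0 * ∫ z, (m z * (s2 (Uu W f z - Uv W g z) + s2 (Uu W (hb f g) z) +
          s2 (Uv W (hb f g) z)) + h z * hd f g z ^ 2))
    (hA : 4 * C0 * C₂ ≤ A₀) (hf : Te univ f) (hg : Te univ g) :
    iW χ gf (Mν ν W) (hd f g) ≤ 8 * C0 * (iA χ W Ef f g + iE χ W gf (hb f g) +
      iX χ Ef (hb f g) (hd f g)) + 1 / 2 * iW χ gf (Mν ν W) (hd f g) := by
  have tb : Te univ (hb f g) := Te.hb hf hg
  have tc : Te univ (hd f g) := Te.hd hf hg
  have C2 := h.C₂
  have hsub : tsupport (fun z => χ z ^ 2 * gf z) ⊆ tsupport χ := by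
    refine closure_mono fun z hz => ?_
    simp only [Function.mem_support] at hz ⊢
    intro h0
    apply hz
    rw [h0]; simp
  have m0 : ∀ z, 0 ≤ χ z ^ 2 * gf z := fun z => by
    by_cases hz : z ∈ tsupport χ
    · exact mul_nonneg (sq_nonneg _) (h.s.g0 z (h.O hz))
    · rw [chi0 hz]; simp
  have key := hCM W (fun z => χ z ^ 2 * gf z)
    (fun z => 8 * (Ef z * gp χ z) + 2 * C₂ * (χ z ^ 2 * gf z)) (Mν ν W) f g ν h.s.sW
    ((h.sχ.pow 2).mul h.s.sg) m0 h.s.sν (fun z => rfl)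
    (fun z hz => h.s.ν1 z (h.O (hsub hz)))
    (fun z => by
      have e : ∑ i, ν i z * dp i (fun z => χ z ^ 2 * gf z) z =
          2 * χ z * gf z * (∑ i, ν i z * dp i χ z) + χ z ^ 2 * ∑ i, ν i z * dp i gf z := by
        rw [Finset.mul_sum, Finset.mul_sum, ← Finset.sum_add_distrib]
        refine Finset.sum_congr rfl fun i _ => ?_
        rw [dp_m (h.sχ.differentiable (by simp) z) (h.s.sg.differentiable (by simp) z)]
        ring
      rw [e]
      by_cases hz : z ∈ tsupport χ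
      · have hO := h.O hz
        have q0 := h.s.g0 z hO
        have q1 := h.s.g1 z hO
        have q2 : (∑ i, ν i z * dp i χ z) ^ 2 ≤ gp χ z := by
          have r1 := Finset.sum_mul_sq_le_sq_mul_sq Finset.univ (fun i => ν i z)
            (fun i => dp i χ z)
          have r2 := h.s.ν1 z hO
          have r3 := gp_nn χ z
          have r4 := mul_le_mul_of_nonneg_right r2 r3
          unfold gp at *
          linarith
        have q3 := h.s.gν z hO
        obtain ⟨a, ha⟩ : ∃ a, a = ∑ i, ν i z * dp i χ z := ⟨_, rfl⟩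
        obtain ⟨β, hβ⟩ : ∃ β, β = ∑ i, ν i z * dp i gf z := ⟨_, rfl⟩
        rw [← ha] at q2
        rw [← hβ] at q3
        rw [← ha, ← hβ]
        have q4 : (2 * χ z * gf z * a + χ z ^ 2 * β) ^ 2 ≤
            8 * (χ z ^ 2 * gf z ^ 2 * a ^ 2) + 2 * (χ z ^ 4 * β ^ 2) := by
          nlinarith [sq_nonneg (2 * χ z * gf z * a - χ z ^ 2 * β)]
        have q5 : χ z ^ 2 * gf z ^ 2 * a ^ 2 ≤ χ z ^ 2 * gf z * (Ef z * gp χ z) := by
          have r1 : gf z * a ^ 2 ≤ Ef z * gp χ z :=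
            mul_le_mul q1 q2 (sq_nonneg _) (q0.trans q1)
          have r2 := mul_le_mul_of_nonneg_left r1 (mul_nonneg (sq_nonneg (χ z)) q0)
          refine le_trans (le_of_eq ?_) r2
          ring
        have q6 : χ z ^ 4 * β ^ 2 ≤ χ z ^ 4 * (C₂ * gf z ^ 2) :=
          mul_le_mul_of_nonneg_left q3 (by positivity)
        refine q4.trans ?_
        have e2 : χ z ^ 2 * gf z * (8 * (Ef z * gp χ z) + 2 * C₂ * (χ z ^ 2 * gf z)) =
            8 * (χ z ^ 2 * gf z * (Ef z * gp χ z)) + 2 * (χ z ^ 4 * (C₂ * gf z ^ 2)) := by ring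
        rw [e2]
        linarith
      · rw [chi0 hz]; simp)
    ((continuous_const.mul (h.s.sE.continuous.mul (c_gp h.sχ))).add
      (continuous_const.mul ((h.sχ.continuous.pow 2).mul h.s.sg.continuous)))
    (fun z => by
      have q1 := m0 z
      have q2 := gp_nn χ z
      have q3 := h.s.E0 z
      have q4 : 0 ≤ C₂ * (χ z ^ 2 * gf z) := mul_nonneg C2.le q1
      have q5 : 0 ≤ Ef z * gp χ z := mul_nonneg q3.le q2
      linarith)
    (fun z hz => h.s.m1 z (h.O (hsub hz)))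
    (fun z hz => h.s.m2 z (h.O (hsub hz))) hf hg
  have cχ := h.sχ.continuous.pow 2
  have e1 : ∫ z, χ z ^ 2 * gf z * Mν ν W z ^ 2 * hd f g z ^ 2 = iW χ gf (Mν ν W) (hd f g) := by
    unfold iW
    congr 1
    funext z; ring
  rw [e1] at key
  have i1 : Cc fun z => χ z ^ 2 * (gf z * hd f g z ^ 2) := (cc_sq h.s.sg.continuous tc).mulL cχ
  have i2 : Cc fun z => Ef z * gp χ z * hd f g z ^ 2 :=
    cc_sq (h.s.sE.continuous.mul (c_gp h.sχ)) tc
  have e2 : ∫ z, (χ z ^ 2 * gf z * (s2 (Uu W f z - Uv W g z) + s2 (Uu W (hb f g) z) +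
          s2 (Uv W (hb f g) z)) + (8 * (Ef z * gp χ z) + 2 * C₂ * (χ z ^ 2 * gf z)) *
          hd f g z ^ 2) ≤
      (iA χ W Ef f g + iE χ W gf (hb f g)) + (8 * (∫ z, Ef z * gp χ z * hd f g z ^ 2) +
        2 * C₂ * ∫ z, χ z ^ 2 * (gf z * hd f g z ^ 2)) := by
    unfold iA iE
    rw [← integral_const_mul, ← integral_const_mul, ← integral_add (h.ccA hf hg).int
      (h.ccE tb).int, ← integral_add (i2.cm 8).int (i1.cm _).int,
      ← integral_add ((h.ccA hf hg).add (h.ccE tb)).int ((i2.cm 8).add (i1.cm _)).int]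
    refine integral_mono ?_ (((h.ccA hf hg).add (h.ccE tb)).add
      ((i2.cm 8).add (i1.cm _))).int fun z => ?_
    · have t1 : Te univ fun z => s2 (Uu W f z - Uv W g z) + s2 (Uu W (hb f g) z) +
          s2 (Uv W (hb f g) z) :=
        ((h.tsY hf hg).add isOpen_univ (h.tsU tb)).add isOpen_univ (h.tsV tb)
      exact (((Te.cc t1).mulL (cχ.mul h.s.sg.continuous)).add (cc_sq
        ((continuous_const.mul (h.s.sE.continuous.mul (c_gp h.sχ))).add
          (continuous_const.mul (cχ.mul h.s.sg.continuous))) tc)).int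
    · by_cases hz : z ∈ tsupport χ
      · have q1 := h.s.g1 z (h.O hz)
        have q2 := mul_le_mul_of_nonneg_right q1 (s2_nn (Uu W f z - Uv W g z))
        have q3 := mul_le_mul_of_nonneg_left q2 (sq_nonneg (χ z))
        show χ z ^ 2 * gf z * (s2 (Uu W f z - Uv W g z) + s2 (Uu W (hb f g) z) +
          s2 (Uv W (hb f g) z)) + (8 * (Ef z * gp χ z) + 2 * C₂ * (χ z ^ 2 * gf z)) *
          hd f g z ^ 2 ≤ χ z ^ 2 * (Ef z * s2 (Uu W f z - Uv W g z)) +
          χ z ^ 2 * (gf z * (s2 (Uu W (hb f g) z) + s2 (Uv W (hb f g) z))) +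
          (8 * (Ef z * gp χ z * hd f g z ^ 2) +
          2 * C₂ * (χ z ^ 2 * (gf z * hd f g z ^ 2)))
        linarith
      · show χ z ^ 2 * gf z * (s2 (Uu W f z - Uv W g z) + s2 (Uu W (hb f g) z) +
          s2 (Uv W (hb f g) z)) + (8 * (Ef z * gp χ z) + 2 * C₂ * (χ z ^ 2 * gf z)) *
          hd f g z ^ 2 ≤ χ z ^ 2 * (Ef z * s2 (Uu W f z - Uv W g z)) +
          χ z ^ 2 * (gf z * (s2 (Uu W (hb f g) z) + s2 (Uv W (hb f g) z))) +
          (8 * (Ef z * gp χ z * hd f g z ^ 2) +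
          2 * C₂ * (χ z ^ 2 * (gf z * hd f g z ^ 2)))
        rw [chi0 hz, gp0 hz]
        simp
  have e3 : ∫ z, Ef z * gp χ z * hd f g z ^ 2 ≤ iX χ Ef (hb f g) (hd f g) := by
    refine integral_mono i2.int (h.ccX tb tc).int fun z => ?_
    have h1 := gq_nn χ z
    have h2 := gp_nn χ z
    have h3 := h.s.E0 z
    have q1 : 0 ≤ Ef z * (gq χ z + gp χ z) * hb f g z ^ 2 := by positivity
    have q2 : 0 ≤ (gq χ z + gp χ z) * hd f g z ^ 2 := by positivity
    show Ef z * gp χ z * hd f g z ^ 2 ≤ Ef z * (gq χ z + gp χ z) * hb f g z ^ 2 +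
      (Ef z * gp χ z + (gq χ z + gp χ z)) * hd f g z ^ 2
    linarith
  have e4 : 4 * C0 * C₂ * (∫ z, χ z ^ 2 * (gf z * hd f g z ^ 2)) ≤
      iW χ gf (Mν ν W) (hd f g) := by
    unfold iW
    rw [← integral_const_mul]
    refine integral_mono (i1.cm _).int (h.ccW tc).int fun z => ?_
    show 4 * C0 * C₂ * (χ z ^ 2 * (gf z * hd f g z ^ 2)) ≤
      χ z ^ 2 * (gf z * Mν ν W z ^ 2 * hd f g z ^ 2)
    by_cases hz : z ∈ tsupport χ
    · have q0 := h.s.g0 z (h.O hz)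
      have q1 := h.s.aM z (h.O hz)
      have q2 : 4 * C0 * C₂ ≤ Mν ν W z ^ 2 := by unfold Mν; linarith
      have q3 := mul_le_mul_of_nonneg_right q2
        (by positivity : 0 ≤ χ z ^ 2 * (gf z * hd f g z ^ 2))
      refine q3.trans (le_of_eq ?_)
      ring
    · rw [chi0 hz]; simp
  have A0 := h.A_nn f g
  have E0 : 0 ≤ iE χ W gf (hb f g) := by
    refine integral_nonneg fun z => ?_
    show 0 ≤ χ z ^ 2 * (gf z * (s2 (Uu W (hb f g) z) + s2 (Uv W (hb f g) z)))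
    by_cases hz : z ∈ tsupport χ
    · exact mul_nonneg (sq_nonneg _) (mul_nonneg (h.s.g0 z (h.O hz))
        (add_nonneg (s2_nn _) (s2_nn _)))
    · rw [chi0 hz]; simp
  have f1 := mul_le_mul_of_nonneg_left e2 hC0.le
  have f2 := mul_le_mul_of_nonneg_left e3 (by positivity : 0 ≤ 8 * C0)
  have f3 : 0 ≤ C0 * iA χ W Ef f g := by positivity
  have f4 : 0 ≤ C0 * iE χ W gf (hb f g) := by positivity
  linarith

end

end Vale.Agent.P088.R2.H205.CP
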