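import Vale.Agent.P088.R2.H205.C.RIf

/-!
# P088, stage 3, zone C, region I: the theorem
-/

open MeasureTheory Set
open scoped ContDiff

noncomputable section

namespace Vale.Agent.P088.R2.H205.CP

open Vale.Agent.P088.LR Vale.Agent.P088.HY
open Vale.Agent.P088.R2.H644 Vale.Agent.P088.R2.H961.GW Vale.Agent.P088.R2.H551.E
open Vale.Agent.P088.R2.H960.C

variable {n : ℕ}

theorem Cel'.mono {κ₀ C₂ C₂' C₃ c₀ c c₀' c' K₀ lam : ℝ} {W Ef Kf : VV n → ℝ} {O : Set (VV n)}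
    (h : Cel' κ₀ C₂ C₃ c₀ c K₀ lam W Ef Kf O) (h1 : C₂ ≤ C₂') (h2 : c₀ ^ 2 ≤ c₀' ^ 2)
    (h3 : c ≤ c') (hE : ∀ z ∈ O, 0 ≤ Ef z) (hK : ∀ z ∈ O, 0 ≤ Kf z) :
    Cel' κ₀ C₂' C₃ c₀' c' K₀ lam W Ef Kf O where
  k0 := h.k0
  r0 z hz := (h.r0 z hz).trans h2
  t0 z hz := (h.t0 z hz).trans (mul_le_mul_of_nonneg_right h3 (hK z hz))
  np := h.np
  ef z hz z' hz' hd := (h.ef z hz z' hz' hd).trans <|
    mul_le_mul_of_nonneg_left (by
      have := mul_le_mul_of_nonneg_right h1 (norm_nonneg (vp z - vp z'))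
      linarith) (hE z hz)
  kf := h.kf
  wq z hz z' hz' hd i := (h.wq z hz z' hz' hd i).trans (by
    have h4 : 0 ≤ Ef z * (‖vq z‖ + ‖vq z'‖) * ‖vp z - vp z'‖ :=
      mul_nonneg (mul_nonneg (hE z hz) (by positivity)) (norm_nonneg _)
    have := mul_le_mul_of_nonneg_right h1 h4
    linarith)
  wp z hz z' hz' hd i := (h.wp z hz z' hz' hd i).trans (by
    have h5 := hE z hz
    have h6 := hK z hz
    refine mul_le_mul_of_nonneg_right h1 ?_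
    positivity)

section

variable {σ τ : Sl (VV n) (Fin n)} {v₁ v₂ W Ef Kf gf χ f g b c : VV n → ℝ}
  {ν : Fin n → VV n → ℝ} {C₂ A₀ : ℝ} {O : Set (VV n)}

/-- **(5)**. -/
theorem RD.est5 (h : RD σ τ v₁ v₂ W Ef Kf gf ν C₂ A₀ O χ) (hc : Te univ c) :
    A₀ * iK χ Ef Kf c ≤ iW χ gf (Mν ν W) c := by
  unfold iK iW
  rw [← integral_const_mul]
  refine integral_mono ((h.ccK hc).cm _).int (h.ccW hc).int fun z => ?_
  show A₀ * (χ z ^ 2 * (Ef z * Kf z * c z ^ 2)) ≤ χ z ^ 2 * (gf z * Mν ν W z ^ 2 * c z ^ 2)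
  by_cases hz : z ∈ tsupport χ
  · have q1 := h.s.aK z (h.O hz)
    have q2 := mul_le_mul_of_nonneg_right q1 (by positivity : 0 ≤ χ z ^ 2 * c z ^ 2)
    unfold Mν
    linarith
  · rw [chi0 hz]; simp

/-- The main part. -/
def iQ (δ : ℝ) (χ W Ef f g : VV n → ℝ) : ℝ :=
  8 * (1 - δ) * iA χ W Ef f g - 32 * n * (1 + δ) * iB χ Ef (hb f g)

/-- **(2)**. -/
theorem RD.est2 (h : RD σ τ v₁ v₂ W Ef Kf gf ν C₂ A₀ O χ) {δ C₃ ep : ℝ} (hep : 0 ≤ ep)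
    (hpw : pwI σ τ v₁ v₂ W Ef Kf ν δ C₃ ep O) (hf : Te univ f) (hg : Te univ g) :
    iQ δ χ W Ef f g + iP χ W Kf ν f g - C₃ * iK χ Ef Kf (hd f g) - ep * iZ σ τ W χ f g ≤
      iT σ τ v₁ v₂ W χ f g := by
  have tb : Te univ (hb f g) := Te.hb hf hg
  have tc : Te univ (hd f g) := Te.hd hf hg
  unfold iQ iP iK iT iZ iA iB
  rw [← integral_const_mul, ← integral_const_mul, ← integral_const_mul, ← integral_const_mul,
    ← integral_sub ((h.ccA hf hg).cm _).int ((h.ccB tb).cm _).int,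
    ← integral_add (((h.ccA hf hg).cm _).sub ((h.ccB tb).cm _)).int (h.ccP hf hg).int,
    ← integral_sub ((((h.ccA hf hg).cm _).sub ((h.ccB tb).cm _)).add (h.ccP hf hg)).int
      ((h.ccK tc).cm _).int,
    ← integral_sub (((((h.ccA hf hg).cm _).sub ((h.ccB tb).cm _)).add (h.ccP hf hg)).sub
      ((h.ccK tc).cm _)).int ((h.ccZ hf hg).cm _).int]
  refine integral_mono ((((((h.ccA hf hg).cm _).sub ((h.ccB tb).cm _)).add (h.ccP hf hg)).sub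
      ((h.ccK tc).cm _)).sub ((h.ccZ hf hg).cm _)).int (h.ccT hf hg).int fun z => ?_
  show 8 * (1 - δ) * (χ z ^ 2 * (Ef z * s2 (Uu W f z - Uv W g z))) -
      32 * n * (1 + δ) * (χ z ^ 2 * (Ef z ^ 2 * hb f g z ^ 2)) +
      χ z ^ 2 * (Kf z * (∑ i, ν i z * (Uu W f z i + Uv W g z i)) ^ 2) -
      C₃ * (χ z ^ 2 * (Ef z * Kf z * hd f g z ^ 2)) - ep * (χ z ^ 2 * zd σ τ W f g z) ≤
    χ z ^ 2 * sta σ τ v₁ v₂ W f g z
  by_cases hz : z ∈ tsupport χ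
  · have q1 := hpw f g hf hg z (h.O hz)
    have F0 : 0 ≤ σ.F W z := h.σs.q0 z _
    have F0' : 0 ≤ τ.F W z := h.τs.q0 z _
    have q2 : s2 (Uu W f z) + s2 (Uv W g z) + f z ^ 2 + g z ^ 2 ≤ zd σ τ W f g z := by
      unfold zd
      have : 0 ≤ (σ.F W z + τ.F W z) * (f z ^ 2 + g z ^ 2) := by positivity
      linarith
    have q3 := mul_le_mul_of_nonneg_left q2 hep
    have q4 := mul_le_mul_of_nonneg_left (q1.trans' (by
      linarith : 8 * (1 - δ) * (Ef z * s2 (Uu W f z - Uv W g z)) +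
      Kf z * (∑ i, ν i z * (Uu W f z i + Uv W g z i)) ^ 2 -
      32 * n * (1 + δ) * (Ef z ^ 2 * hb f g z ^ 2) - C₃ * (Ef z * Kf z * hd f g z ^ 2) -
      ep * zd σ τ W f g z ≤ _)) (sq_nonneg (χ z))
    linarith
  · rw [chi0 hz]; simp

/-- **(1)** from the freezing row. -/
theorem RD.est1 (h : RD σ τ v₁ v₂ W Ef Kf gf ν C₂ A₀ O χ) {δ η C : ℝ} (hC : 0 ≤ C)
    (hAI : η * ∫ z, χ z ^ 2 * (Ef z * s2 (Uu W f z - Uv W g z) + Ef z ^ 2 * hb f g z ^ 2) ≤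
      (∫ z, χ z ^ 2 * (8 * (1 - δ) * Ef z * s2 (Uu W f z - Uv W g z) -
        32 * n * (1 + δ) * Ef z ^ 2 * hb f g z ^ 2 + C * Ef z * Kf z * hd f g z ^ 2)) +
      C * ∫ z, Ef z * ((gq χ z + gp χ z) * hb f g z ^ 2 + gp χ z * hd f g z ^ 2))
    (hf : Te univ f) (hg : Te univ g) :
    η * (iA χ W Ef f g + iB χ Ef (hb f g)) ≤ iQ δ χ W Ef f g + C * iK χ Ef Kf (hd f g) +
      C * iX χ Ef (hb f g) (hd f g) := by
  have tb : Te univ (hb f g) := Te.hb hf hg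
  have tc : Te univ (hd f g) := Te.hd hf hg
  have e1 : ∫ z, χ z ^ 2 * (Ef z * s2 (Uu W f z - Uv W g z) + Ef z ^ 2 * hb f g z ^ 2) =
      iA χ W Ef f g + iB χ Ef (hb f g) := by
    unfold iA iB
    rw [← integral_add (h.ccA hf hg).int (h.ccB tb).int]
    congr 1
    funext z; ring
  have e2 : ∫ z, χ z ^ 2 * (8 * (1 - δ) * Ef z * s2 (Uu W f z - Uv W g z) -
        32 * n * (1 + δ) * Ef z ^ 2 * hb f g z ^ 2 + C * Ef z * Kf z * hd f g z ^ 2) =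
      iQ δ χ W Ef f g + C * iK χ Ef Kf (hd f g) := by
    unfold iQ iK iA iB
    rw [← integral_const_mul, ← integral_const_mul, ← integral_const_mul,
      ← integral_sub ((h.ccA hf hg).cm _).int ((h.ccB tb).cm _).int,
      ← integral_add (((h.ccA hf hg).cm _).sub ((h.ccB tb).cm _)).int ((h.ccK tc).cm _).int]
    congr 1
    funext z; ring
  have e3 : ∫ z, Ef z * ((gq χ z + gp χ z) * hb f g z ^ 2 + gp χ z * hd f g z ^ 2) ≤
      iX χ Ef (hb f g) (hd f g) := by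
    unfold iX
    have cq := c_gq h.sχ
    have cp := c_gp h.sχ
    refine integral_mono (((cc_sq (cq.add cp) tb).add (cc_sq cp tc)).mulL
      h.s.sE.continuous).int (h.ccX tb tc).int fun z => ?_
    show Ef z * ((gq χ z + gp χ z) * hb f g z ^ 2 + gp χ z * hd f g z ^ 2) ≤
      Ef z * (gq χ z + gp χ z) * hb f g z ^ 2 +
      (Ef z * gp χ z + (gq χ z + gp χ z)) * hd f g z ^ 2
    have h1 := gq_nn χ z
    have h2 := gp_nn χ z
    have : 0 ≤ (gq χ z + gp χ z) * hd f g z ^ 2 := by positivity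
    linarith
  rw [e1, e2] at hAI
  have := mul_le_mul_of_nonneg_left e3 hC
  linarith

end

/-- The letters of region I. -/
def mgI (c : ℝ) (σ τ : Sl (VV n) (Fin n)) (W Ef gf : VV n → ℝ) (ν : Fin n → VV n → ℝ) :
    Q8 (VV n) where
  κ _ := c
  ζ₁ _ := c
  ζ₂ _ := c
  ζy z := c * Ef z
  w₁ z := c * σ.F W z
  w₂ z := c * τ.F W z
  wb z := c * Ef z ^ 2
  wc z := c * (gf z * Mν ν W z ^ 2)

/-- The cost of region I. -/
def coI (C : ℝ) (Ef χ : VV n → ℝ) : Q8 (VV n) where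
  κ _ := 0
  ζ₁ _ := 0
  ζ₂ _ := 0
  ζy _ := 0
  w₁ _ := 0
  w₂ _ := 0
  wb z := C * (Ef z * (gq χ z + gp χ z))
  wc z := C * (Ef z * gp χ z + (gq χ z + gp χ z))

/-- The zone inequality with the additional margin `K (ν·(X a + X b))²`. -/
def ZoneK (σ τ : Sl (VV n) (Fin n)) (v₁ v₂ W Kf χ : VV n → ℝ) (ν : Fin n → VV n → ℝ) (c : ℝ)
    (mg co : Q8 (VV n)) : Prop :=
  ∀ a b : VV n → ℝ, Te univ a → Te univ b →
    In univ (fun _ => 1) (mg.dens σ τ v₁ v₂ W a b) +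
      In univ (fun _ => 1) (fun z => χ z ^ 2 *
        (c * Kf z * (∑ i, ν i z * (Ch.XX σ W a z i + Ch.XX τ W b z i)) ^ 2)) -
      In univ (fun _ => 1) (co.dens σ τ v₁ v₂ W a b) ≤
      In univ (fun _ => 1) fun z => χ z ^ 2 * dn σ τ v₁ v₂ W a b z

/-- **Region I** (with the term of the direction of the slope). -/
theorem ri (hAI : RowAI') (hCM : RowCM) (hEN : RowEN) : ∀ n : ℕ, 3 ≤ n →
    ∃ δ κ₀ : ℝ, 0 < δ ∧ 0 < κ₀ ∧ ∀ C₂ C₃ : ℝ, 0 < C₂ → 0 < C₃ →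
    ∃ c₁ A₀ c C ep : ℝ, 0 < c₁ ∧ 1 ≤ A₀ ∧ 0 < c ∧ 0 < C ∧ 0 < ep ∧
    ∀ C₄ : ℝ, 0 < C₄ → ∃ K₀ lam : ℝ, 0 < K₀ ∧ 0 < lam ∧ lam ≤ 1 / C₄ ∧
    ∀ (σ τ : Sl (VV n) (Fin n)) (v₁ v₂ W Ef Kf gf : VV n → ℝ) (ν : Fin n → VV n → ℝ)
      (O : Set (VV n)) (χ : VV n → ℝ), RD σ τ v₁ v₂ W Ef Kf gf ν C₂ A₀ O χ →
      Cel' κ₀ C₂ C₄ c₁ c₁ K₀ lam W Ef Kf O → pwI σ τ v₁ v₂ W Ef Kf ν δ C₃ ep O →
      ZoneK σ τ v₁ v₂ W Kf χ ν c ((mgI c σ τ W Ef gf ν).sm fun z => χ z ^ 2) (coI C Ef χ) := by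
  intro n hn
  obtain ⟨δ, η₀, κ₀, hδ, hη₀, hκ₀, H⟩ := hAI n hn
  obtain ⟨C0, hC0, hCM⟩ := hCM n
  obtain ⟨CE, hCE, hEN⟩ := hEN
  refine ⟨δ, κ₀, hδ, hκ₀, fun C₂ C₃ hC₂ hC₃ => ?_⟩
  obtain ⟨c₀, cc, C1, hc₀, hcc, hC1, H⟩ := H C₂ hC₂
  obtain ⟨η, hη⟩ : ∃ η, η = min η₀ 1 := ⟨_, rfl⟩
  have pη : 0 < η := by rw [hη]; positivity
  have η1 : η ≤ 1 := by rw [hη]; exact min_le_right _ _
  have η0 : η ≤ η₀ := by rw [hη]; exact min_le_left _ _
  obtain ⟨CM, hCM'⟩ : ∃ CM, CM = 1 + 8 * C0 := ⟨_, rfl⟩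
  obtain ⟨C4, hC4⟩ : ∃ C4, C4 = 1 + 8 * C₂ + 8 * CE * (6 * C₂ + 5) + 256 * CE := ⟨_, rfl⟩
  have pM1 : 1 ≤ CM := by rw [hCM']; linarith
  have p41 : 1 ≤ C4 := by
    rw [hC4]
    have : 0 < 8 * C₂ := by positivity
    have : 0 < 8 * CE * (6 * C₂ + 5) := by positivity
    have : 0 < 256 * CE := by positivity
    linarith
  obtain ⟨CZ, hCZ⟩ : ∃ CZ, CZ = 10 + 128 * CE := ⟨_, rfl⟩
  have pZ : 0 < CZ := by rw [hCZ]; positivity
  obtain ⟨A₀, hA₀⟩ : ∃ A₀, A₀ = 1 + 4 * C0 * C₂ + 64 * CM * C4 * (C1 + C₃) / η := ⟨_, rfl⟩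
  have pL : 0 < 64 * CM * C4 * (C1 + C₃) / η := by positivity
  have A1 : 1 ≤ A₀ := by
    have : 0 < 4 * C0 * C₂ := by positivity
    rw [hA₀]; linarith
  have A2 : 4 * C0 * C₂ ≤ A₀ := by rw [hA₀]; linarith
  have A3 : 64 * CM * C4 * (C1 + C₃) ≤ A₀ * η := by
    have h1 : 64 * CM * C4 * (C1 + C₃) / η ≤ A₀ := by
      have : 0 < 4 * C0 * C₂ := by positivity
      rw [hA₀]; linarith
    exact (div_le_iff₀ pη).1 h1
  obtain ⟨ep, hep⟩ : ∃ ep, ep = η / (2 * CZ * (64 * CM * C4)) := ⟨_, rfl⟩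
  have pe : 0 < ep := by rw [hep]; positivity
  have e1 : 2 * ep * CZ * (64 * CM * C4) ≤ η := by
    rw [hep]
    apply le_of_eq
    field_simp
  obtain ⟨c, hc⟩ : ∃ c, c = min (η / (32 * CM * C4) / 4) ep := ⟨_, rfl⟩
  have pc : 0 < c := by rw [hc]; positivity
  have c1 : 4 * c ≤ η / (32 * CM * C4) := by
    have := min_le_left (η / (32 * CM * C4) / 4) ep
    rw [← hc] at this
    linarith
  have c2 : c ≤ ep := by rw [hc]; exact min_le_right _ _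
  refine ⟨min c₀ cc, A₀, c, 2 * C1 + 2, ep, by positivity, A1, pc, by positivity, pe,
    fun C₄ hC₄ => ?_⟩
  obtain ⟨K₀, lam, hK₀, hlam, hlam1, H⟩ := H C₄ hC₄
  refine ⟨K₀, lam, hK₀, hlam, hlam1, ?_⟩
  intro σ τ v₁ v₂ W Ef Kf gf ν O χ h hCel hpw f g hf hg
  have tb : Te univ (hb f g) := Te.hb hf hg
  have tc : Te univ (hd f g) := Te.hd hf hg
  have en₁ : ENs CE σ v₁ W := fun m hh om k a κ sm sh so sk ta hκ h0 h1 h2 =>
    hEN n σ univ (fun _ => 1) h.s.oσ (fun z _ ξ => h.σs.q0 z ξ) v₁ W m hh om k a κ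
      h.sv₁.contDiffOn h.s.sW.contDiffOn sm sh so sk ta hκ h0 h1 h2
  have en₂ : ENs CE τ v₂ W := fun m hh om k a κ sm sh so sk ta hκ h0 h1 h2 =>
    hEN n τ univ (fun _ => 1) h.s.oτ (fun z _ ξ => h.τs.q0 z ξ) v₂ W m hh om k a κ
      h.sv₂.contDiffOn h.s.sW.contDiffOn sm sh so sk ta hκ h0 h1 h2
  have kk : ∀ z ∈ O, 0 ≤ Kf z := h.s.k0
  have hmc : (min c₀ cc) ^ 2 ≤ c₀ ^ 2 :=
    pow_le_pow_left₀ (by positivity) (min_le_left _ _) 2
  have cel := hCel.mono le_rfl hmc (min_le_right c₀ cc) (fun z _ => (h.s.E0 z).le) kk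
  have ai := H O W Ef Kf χ f g h.s.sW h.s.sE.continuous h.s.sK h.s.E0 cel h.sχ h.O hf hg
  have n1 := h.est1 hC1.le ai hf hg
  have n2 := h.est2 pe.le hpw hf hg
  have n3 := h.est3 hC0 hCM A2 hf hg
  have n4 := h.est4 hCE en₁ en₂ hf hg
  have n5 := h.est5 tc
  have n6 := h.est6 hCE en₁ en₂ hf hg
  have pA := h.A_nn f g
  have pB := iB_nn χ Ef (hb f g)
  have pW := h.Wc_nn (hd f g)
  have pK := h.K_nn (hd f g)
  have pP := h.P_nn f g
  have pS := iS_nn σ τ v₁ v₂ W χ f g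
  have pX := h.X_nn (hb f g) (hd f g)
  have pE : 0 ≤ iE χ W gf (hb f g) := by
    refine integral_nonneg fun z => ?_
    show 0 ≤ χ z ^ 2 * (gf z * (s2 (Uu W (hb f g) z) + s2 (Uv W (hb f g) z)))
    by_cases hz : z ∈ tsupport χ
    · exact mul_nonneg (sq_nonneg _) (mul_nonneg (h.s.g0 z (h.O hz))
        (add_nonneg (s2_nn _) (s2_nn _)))
    · rw [chi0 hz]; simp
  have pZ0 : 0 ≤ iZ σ τ W χ f g := by
    refine integral_nonneg fun z => ?_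
    have F0 : 0 ≤ σ.F W z := h.σs.q0 z _
    have F0' : 0 ≤ τ.F W z := h.τs.q0 z _
    have := s2_nn (Uu W f z)
    have := s2_nn (Uv W g z)
    show 0 ≤ χ z ^ 2 * zd σ τ W f g z
    unfold zd
    positivity
  have main := ri_num (η := η) (C1 := C1) (C3 := C₃) (CM := CM) (C4 := C4) (A0 := A₀)
    (ep := 2 * ep * CZ) (A := iA χ W Ef f g) (B := iB χ Ef (hb f g))
    (Wc := iW χ gf (Mν ν W) (hd f g)) (EK := iK χ Ef Kf (hd f g)) (Pk := iP χ W Kf ν f g)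
    (S := iS σ τ v₁ v₂ W χ f g) (D := iT σ τ v₁ v₂ W χ f g - ep * iZ σ τ W χ f g)
    (Z := 2 * ep * iZ σ τ W χ f g) (X := iX χ Ef (hb f g) (hd f g)) (Eb := iE χ W gf (hb f g))
    (Q := iQ δ χ W Ef f g) pη η1 pM1 p41 pA pB pW pP pS pX
    (by
      have := mul_le_mul_of_nonneg_right η0 (add_nonneg pA pB)
      linarith)
    (by linarith)
    (by
      have h1 : 0 ≤ iA χ W Ef f g + iE χ W gf (hb f g) + iX χ Ef (hb f g) (hd f g) := by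
        positivity
      rw [hCM']
      linarith)
    (by
      have h1 : 0 ≤ (1 + 256 * CE) * iB χ Ef (hb f g) := by positivity
      have h2 : 0 ≤ (1 + 8 * C₂ + 8 * CE * (6 * C₂ + 5)) * iX χ Ef (hb f g) (hd f g) := by
        positivity
      rw [hC4]
      linarith)
    n5 pK A3
    (by
      have h1 := mul_le_mul_of_nonneg_left n6 (by positivity : 0 ≤ 2 * ep)
      have h2 : 0 ≤ C1 * iX χ Ef (hb f g) (hd f g) := by positivity
      rw [← hCZ] at h1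
      linarith)
    e1
  -- from the integrals to the zone form
  have In1 : ∀ F : VV n → ℝ, In univ (fun _ => 1) F = ∫ z, F z := int_univ
  rw [In1, In1, In1, In1]
  have t1 : ∫ z, ((mgI c σ τ W Ef gf ν).sm fun z => χ z ^ 2).dens σ τ v₁ v₂ W f g z =
      c * (iA χ W Ef f g + 4 * iB χ Ef (hb f g) + 4 * iW χ gf (Mν ν W) (hd f g) +
        iS σ τ v₁ v₂ W χ f g) + c * ∫ z, χ z ^ 2 * (s2 (Uu W f z) + s2 (Uv W g z) +
        (σ.F W z * f z ^ 2 + τ.F W z * g z ^ 2)) := by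
    have cI : Cc fun z => χ z ^ 2 * (s2 (Uu W f z) + s2 (Uv W g z) +
        (σ.F W z * f z ^ 2 + τ.F W z * g z ^ 2)) :=
      ((Te.cc ((h.tsU hf).add isOpen_univ (h.tsV hg))).add
        ((cc_sq h.cFσ hf).add (cc_sq h.cFτ hg))).mulL (h.sχ.continuous.pow 2)
    unfold iA iB iW iS
    rw [← integral_const_mul 4, ← integral_const_mul 4,
      ← integral_add (h.ccA hf hg).int ((h.ccB tb).cm 4).int,
      ← integral_add ((h.ccA hf hg).add ((h.ccB tb).cm 4)).int ((h.ccW tc).cm 4).int,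
      ← integral_add (((h.ccA hf hg).add ((h.ccB tb).cm 4)).add ((h.ccW tc).cm 4)).int
        (h.ccS hf hg).int, ← mul_add,
      ← integral_add ((((h.ccA hf hg).add ((h.ccB tb).cm 4)).add ((h.ccW tc).cm 4)).add
        (h.ccS hf hg)).int cI.int, ← integral_const_mul]
    congr 1
    funext z
    rw [Q8.dens_sm]
    unfold Q8.dens mgI nX nY Ch.XX s2 Uu Uv hb hd
    simp only [h.s.dσ, h.s.dτ, Pi.sub_apply]
    ring
  have t2 : ∫ z, χ z ^ 2 *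
        (c * Kf z * (∑ i, ν i z * (Ch.XX σ W f z i + Ch.XX τ W g z i)) ^ 2) =
      c * iP χ W Kf ν f g := by
    unfold iP
    rw [← integral_const_mul]
    congr 1
    funext z
    unfold Ch.XX Uu Uv
    simp only [h.s.dσ, h.s.dτ]
    ring
  have t3 : ∫ z, (coI (2 * C1 + 2) Ef χ).dens σ τ v₁ v₂ W f g z =
      4 * ((2 * C1 + 2) * iX χ Ef (hb f g) (hd f g)) := by
    unfold iX
    rw [← integral_const_mul, ← integral_const_mul]
    congr 1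
    funext z
    unfold Q8.dens coI hb hd
    ring
  have t4 : ∫ z, χ z ^ 2 * dn σ τ v₁ v₂ W f g z =
      iS σ τ v₁ v₂ W χ f g + iT σ τ v₁ v₂ W χ f g := by
    unfold iS iT
    rw [← integral_add (h.ccS hf hg).int (h.ccT hf hg).int]
    congr 1
    funext z
    unfold dn
    ring
  have t5 : ∫ z, χ z ^ 2 * (s2 (Uu W f z) + s2 (Uv W g z) +
        (σ.F W z * f z ^ 2 + τ.F W z * g z ^ 2)) ≤ iZ σ τ W χ f g := by
    have cI : Cc fun z => χ z ^ 2 * (s2 (Uu W f z) + s2 (Uv W g z) +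
        (σ.F W z * f z ^ 2 + τ.F W z * g z ^ 2)) :=
      ((Te.cc ((h.tsU hf).add isOpen_univ (h.tsV hg))).add
        ((cc_sq h.cFσ hf).add (cc_sq h.cFτ hg))).mulL (h.sχ.continuous.pow 2)
    refine integral_mono cI.int (h.ccZ hf hg).int fun z => ?_
    have F0 : 0 ≤ σ.F W z := h.σs.q0 z _
    have F0' : 0 ≤ τ.F W z := h.τs.q0 z _
    refine mul_le_mul_of_nonneg_left ?_ (sq_nonneg (χ z))
    unfold zd
    have q1 := mul_nonneg F0 (sq_nonneg (g z))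
    have q2 := mul_nonneg F0' (sq_nonneg (f z))
    have q3 := sq_nonneg (f z)
    have q4 := sq_nonneg (g z)
    linarith
  rw [t1, t2, t3, t4]
  obtain ⟨L, hL⟩ : ∃ L, L = η / (32 * CM * C4) := ⟨_, rfl⟩
  rw [← hL] at main c1
  have u1 := mul_le_mul_of_nonneg_right c1 pA
  have u2 := mul_le_mul_of_nonneg_right c1 pB
  have u3 := mul_le_mul_of_nonneg_right c1 pW
  have u4 := mul_le_mul_of_nonneg_right c1 pS
  have u5 := mul_le_mul_of_nonneg_right c1 pP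
  have u6 := mul_le_mul_of_nonneg_left t5 pc.le
  have u7 := mul_le_mul_of_nonneg_right c2 pZ0
  have u8 : 0 ≤ c * iA χ W Ef f g := by positivity
  have u9 : 0 ≤ c * iS σ τ v₁ v₂ W χ f g := by positivity
  have u10 : 0 ≤ c * iP χ W Kf ν f g := by positivity
  have u11 : 0 ≤ (2 * C1 + 2) * iX χ Ef (hb f g) (hd f g) := by positivity
  linarith

end Vale.Agent.P088.R2.H205.CP
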