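import Vale.Agent.P088.R2.H960.W.Weyl2
import Vale.Agent.P088.R2.H644.W.Flat

/-!
# P088, stage 3, zone C: definitions and the literal statements of the rows (flat weight)
-/

open MeasureTheory Set
open scoped ContDiff

noncomputable section

namespace Vale.Agent.P088.R2.H205.C

open Vale.Agent.P088.LR Vale.Agent.P088.HY
open Vale.Agent.P088.R2.H961.GW
open Vale.Agent.P088.R2.H644 Vale.Agent.P088.R2.H644.Ch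

variable {n : ℕ}

/-! ### The dressed derivatives -/

/-- `X* f = f W_x - f_x`. -/
def Uu (W f : VV n → ℝ) (z : VV n) : V n := fun i => f z * dx i W z - dx i f z

/-- `Y* g = g W_y - g_y`. -/
def Uv (W g : VV n → ℝ) (z : VV n) : V n := fun i => g z * dy i W z - dy i g z

/-- `Y = U - V`. -/
def Yv (W f g : VV n → ℝ) (z : VV n) : V n := fun i => Uu W f z i - Uv W g z i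

/-- `P = (U + V) / 2`. -/
def Pv (W f g : VV n → ℝ) (z : VV n) : V n := fun i => (Uu W f z i + Uv W g z i) / 2

/-- `b`. -/
def hb (f g : VV n → ℝ) (z : VV n) : ℝ := (f z + g z) / 2

/-- `c`. -/
def hd (f g : VV n → ℝ) (z : VV n) : ℝ := (f z - g z) / 2

/-- `|v|²`. -/
def s2 (v : V n) : ℝ := ∑ i, v i ^ 2

/-- `∂_q = (∂_x - ∂_y) / 2`, `∂_p = ∂_x + ∂_y`. -/
def dq (i : Fin n) (f : VV n → ℝ) (z : VV n) : ℝ := (dx i f z - dy i f z) / 2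

def dp (i : Fin n) (f : VV n → ℝ) (z : VV n) : ℝ := dx i f z + dy i f z

def gq (f : VV n → ℝ) (z : VV n) : ℝ := ∑ i, dq i f z ^ 2

def gp (f : VV n → ℝ) (z : VV n) : ℝ := ∑ i, dp i f z ^ 2

/-- `|W_x|² f² + |W_y|² g²`. -/
def wf (W f g : VV n → ℝ) (z : VV n) : ℝ :=
  (∑ i, dx i W z ^ 2) * f z ^ 2 + (∑ i, dy i W z ^ 2) * g z ^ 2

/-- `|U|² + |V|²`. -/
def zz (W f g : VV n → ℝ) (z : VV n) : ℝ := s2 (Uu W f z) + s2 (Uv W g z)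

/-! ### The densities -/

/-- The zero and first order part of the star density. -/
def q0 (W f g : VV n → ℝ) (z : VV n) : ℝ :=
  -(8 * ((∑ i, ∑ l, dx i (dx l W) z ^ 2) * f z ^ 2 +
      2 * ((∑ i, ∑ k, dx i (dy k W) z ^ 2) * (f z * g z)) +
      (∑ i, ∑ l, dy i (dy l W) z ^ 2) * g z ^ 2)) -
    8 * (f z * (∑ i, dx i ((fx n).Λ W) z * Uu W f z i) +
      g z * (∑ i, dx i ((fy n).Λ W) z * Uu W f z i) +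
      f z * (∑ i, dy i ((fx n).Λ W) z * Uv W g z i) +
      g z * (∑ i, dy i ((fy n).Λ W) z * Uv W g z i)) +
    2 * ((fx n).Λ ((fx n).Λ W) z * f z ^ 2 + 2 * ((fx n).Λ ((fy n).Λ W) z * (f z * g z)) +
      (fy n).Λ ((fy n).Λ W) z * g z ^ 2)

/-- The Hessian form. -/
def hh (W f g : VV n → ℝ) (z : VV n) : ℝ := hs W (Uu W f z, Uv W g z) z

/-- The star density. -/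
def st (W f g : VV n → ℝ) (z : VV n) : ℝ := 8 * hh W f g z + q0 W f g z

/-- The squares. -/
def sq4 (W f g : VV n → ℝ) (z : VV n) : ℝ :=
  (fx n).P (fun _ => 0) W f z ^ 2 + (fy n).P (fun _ => 0) W g z ^ 2 +
    (fy n).P (fun _ => 0) W f z ^ 2 + (fx n).P (fun _ => 0) W g z ^ 2

/-- The field term of a slot. -/
def tw (c w u : V n) : ℝ := (∑ i, c i * w i) * (∑ i, u i ^ 2) -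
  2 * ((∑ i, c i * u i) * ∑ i, w i * u i)

def gx (W : VV n → ℝ) (z : VV n) : V n := fun i => dx i W z

def gy (W : VV n → ℝ) (z : VV n) : V n := fun i => dy i W z

/-! ### Weight data -/

/-- `u = x_e + y_e`. -/
def ht (e : Fin n) (z : VV n) : ℝ := z.1 e + z.2 e

/-- The weight `φ(u) + e^u Φ(|x - y|²)`. -/
def Wu (e : Fin n) (φ Φ : ℝ → ℝ) (z : VV n) : ℝ := φ (ht e z) + Ee e 1 z * Φ (qq z)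

/-- `P_e`. -/
def pe (e : Fin n) (W f g : VV n → ℝ) (z : VV n) : ℝ := (Uu W f z e + Uv W g z e) / 2

/-- The profile `S(r) = Φ(r²)` near `0`, `Φ(s) = s/2 + O(s²)`. -/
structure Pf (Cs : ℝ) (Φ Φ₁ Φ₂ Φ₃ Φ₄ : ℝ → ℝ) : Prop where
  sm : ContDiff ℝ ∞ Φ
  d1 : ∀ s, HasDerivAt Φ (Φ₁ s) s
  d2 : ∀ s, HasDerivAt Φ₁ (Φ₂ s) s
  d3 : ∀ s, HasDerivAt Φ₂ (Φ₃ s) s
  d4 : ∀ s, HasDerivAt Φ₃ (Φ₄ s) s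
  b0 : ∀ s, 0 ≤ s → s ≤ 1 → |Φ s - s / 2| ≤ Cs * s ^ 2
  b1 : ∀ s, 0 ≤ s → s ≤ 1 → |Φ₁ s - 1 / 2| ≤ Cs * s
  b2 : ∀ s, 0 ≤ s → s ≤ 1 → |Φ₂ s| ≤ Cs ∧ |Φ₃ s| ≤ Cs ∧ |Φ₄ s| ≤ Cs
  ps : ∀ s, 0 ≤ s → s ≤ 1 → 0 ≤ Φ s ∧ Φ s ≤ s

/-- The slope and its derivatives: on the heights `I`, `N = φ₁`, `K = φ₂`. -/
structure Sp (Cd : ℝ) (φ φ₁ φ₂ φ₃ φ₄ : ℝ → ℝ) (I : Set ℝ) : Prop where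
  oc : I.OrdConnected
  sm : ContDiff ℝ ∞ φ
  d1 : ∀ s, HasDerivAt φ (φ₁ s) s
  d2 : ∀ s, HasDerivAt φ₁ (φ₂ s) s
  d3 : ∀ s, HasDerivAt φ₂ (φ₃ s) s
  d4 : ∀ s, HasDerivAt φ₃ (φ₄ s) s
  np : ∀ s ∈ I, 0 < φ₁ s
  kp : ∀ s ∈ I, 0 < φ₂ s
  kn : ∀ s ∈ I, φ₂ s ≤ φ₁ s
  kd : ∀ s ∈ I, |φ₃ s| ≤ Cd * φ₂ s ∧ |φ₄ s| ≤ Cd * φ₂ s

/-- The growth conditions of zone C at one height, `N`, `K`, `E = exp u`. -/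
structure Gc (a₁ C₁ σ N K E : ℝ) : Prop where
  nu : N ≤ a₁ * E
  ku : K ≤ N
  ke : N ^ 2 ≤ a₁ * (K * E)
  k3 : C₁ * E ≤ K ^ 3
  k2 : C₁ * N ^ 2 ≤ K ^ 3
  k4 : E * N ^ σ ≤ K ^ 3
  e3 : E ≤ N ^ 3
  n0 : C₁ ≤ N

/-- The points with `u ∈ I` and `r ≤ 2 c₀`. -/
def Zn (e : Fin n) (c₀ : ℝ) (I : Set ℝ) : Set (VV n) := {z | ht e z ∈ I ∧ qq z ≤ 4 * c₀ ^ 2}

/-- The points of zone C. -/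
def Zc (e : Fin n) (c₀ a₁ C₁ σ : ℝ) (φ₁ φ₂ : ℝ → ℝ) (I : Set ℝ) : Set (VV n) :=
  {z | z ∈ Zn e c₀ I ∧ Gc a₁ C₁ σ (φ₁ (ht e z)) (φ₂ (ht e z)) (Ee e 1 z)}

/-- `t = E r²`. -/
def tt (e : Fin n) (z : VV n) : ℝ := Ee e 1 z * qq z

/-- `w = N² E² / (E (1 + t) + N²)`. -/
def ww (e : Fin n) (φ₁ : ℝ → ℝ) (z : VV n) : ℝ :=
  φ₁ (ht e z) ^ 2 * Ee e 1 z ^ 2 / (Ee e 1 z * (1 + tt e z) + φ₁ (ht e z) ^ 2)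

/-! ### The pointwise rows -/

/-- **(Q0)** the quantum terms, with a free parameter `lam`. Only `K`, `E` occur. -/
def RowQ0 : Prop := ∀ (n : ℕ) (Cs Cd δ : ℝ), 0 < Cs → 0 < Cd → 0 < δ →
  ∃ a c₀ C₁ C : ℝ, 0 < a ∧ 0 < c₀ ∧ c₀ ≤ 1 / 2 ∧ 0 < C₁ ∧ 0 < C ∧
  ∀ (e : Fin n) (Φ Φ₁ Φ₂ Φ₃ Φ₄ φ φ₁ φ₂ φ₃ φ₄ : ℝ → ℝ) (I : Set ℝ),
  Pf Cs Φ Φ₁ Φ₂ Φ₃ Φ₄ → Sp Cd φ φ₁ φ₂ φ₃ φ₄ I → ∀ z ∈ Zn e c₀ I,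
  C₁ ≤ φ₂ (ht e z) → φ₂ (ht e z) ≤ a * Ee e 1 z →
  ∀ (f g : VV n → ℝ) (lam : ℝ), 0 < lam →
  -(32 * n * (1 + δ) * Ee e 1 z ^ 2 * hb f g z ^ 2) - lam * s2 (Yv (Wu e φ Φ) f g z) -
    δ * φ₂ (ht e z) * pe e (Wu e φ Φ) f g z ^ 2 -
    C * Ee e 1 z * (φ₂ (ht e z) + 1 + tt e z) * hd f g z ^ 2 -
    C * Ee e 1 z ^ 2 / lam * (hd f g z ^ 2 + qq z * hb f g z ^ 2) ≤ q0 (Wu e φ Φ) f g z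

/-- **(PI)** region I. -/
def RowPI : Prop := ∀ (n : ℕ) (Cs Cd δ : ℝ), 0 < Cs → 0 < Cd → 0 < δ →
  ∃ a c₀ c C₁ C : ℝ, 0 < a ∧ 0 < c₀ ∧ c₀ ≤ 1 / 2 ∧ 0 < c ∧ 0 < C₁ ∧ 0 < C ∧
  ∀ (e : Fin n) (Φ Φ₁ Φ₂ Φ₃ Φ₄ φ φ₁ φ₂ φ₃ φ₄ : ℝ → ℝ) (I : Set ℝ),
  Pf Cs Φ Φ₁ Φ₂ Φ₃ Φ₄ → Sp Cd φ φ₁ φ₂ φ₃ φ₄ I → ∀ z ∈ Zn e c₀ I,
  C₁ ≤ φ₂ (ht e z) → φ₂ (ht e z) ≤ a * Ee e 1 z → tt e z ≤ c * φ₂ (ht e z) →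
  ∀ f g : VV n → ℝ,
  8 * (1 - δ) * Ee e 1 z * s2 (Yv (Wu e φ Φ) f g z) +
    φ₂ (ht e z) * pe e (Wu e φ Φ) f g z ^ 2 -
    32 * n * (1 + δ) * Ee e 1 z ^ 2 * hb f g z ^ 2 -
    C * Ee e 1 z * φ₂ (ht e z) * hd f g z ^ 2 ≤ st (Wu e φ Φ) f g z

/-- **(P0)** region 0: no relation between `N` and `E`. -/
def RowP0 : Prop := ∀ (n : ℕ) (Cs Cd : ℝ), 0 < Cs → 0 < Cd →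
  ∃ c₀ c C : ℝ, 0 < c₀ ∧ c₀ ≤ 1 / 2 ∧ 0 < c ∧ 0 < C ∧
  ∀ (e : Fin n) (Φ Φ₁ Φ₂ Φ₃ Φ₄ φ φ₁ φ₂ φ₃ φ₄ : ℝ → ℝ) (I : Set ℝ),
  Pf Cs Φ Φ₁ Φ₂ Φ₃ Φ₄ → Sp Cd φ φ₁ φ₂ φ₃ φ₄ I → ∀ z ∈ Zn e c₀ I,
  tt e z ≤ c * φ₂ (ht e z) →
  ∀ f g : VV n → ℝ,
  Ee e 1 z * s2 (Yv (Wu e φ Φ) f g z) +
    φ₂ (ht e z) * pe e (Wu e φ Φ) f g z ^ 2 -
    C * (Ee e 1 z + Ee e 1 z ^ 2 + φ₂ (ht e z) + φ₂ (ht e z) ^ 2 +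
      Ee e 1 z ^ 2 / φ₂ (ht e z)) * (f z ^ 2 + g z ^ 2) ≤ st (Wu e φ Φ) f g z

/-- Smooth bounded fields on an open set. -/
structure Fld (C : ℝ) (c c' : Fin n → VV n → ℝ) (O : Set (VV n)) : Prop where
  op : IsOpen O
  sc : ∀ i, ContDiffOn ℝ ∞ (c i) O
  sc' : ∀ i, ContDiffOn ℝ ∞ (c' i) O
  bc : ∀ z ∈ O, ∀ i, |c i z| ≤ C
  bc' : ∀ z ∈ O, ∀ i, |c' i z| ≤ C

/-- Region II. -/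
def ZII (e : Fin n) (c₀ a₁ C₁ σ cl : ℝ) (φ₁ φ₂ : ℝ → ℝ) (I : Set ℝ) : Set (VV n) :=
  interior {z | z ∈ Zc e c₀ a₁ C₁ σ φ₁ φ₂ I ∧ cl * φ₂ (ht e z) ≤ tt e z}

/-- **(CN)** the near certificate with the slope field, for the cosh profile `Fs τ`, `τ = θ²`.
`κ`, `C` depend on `n`, `cl`; `ε` is arbitrarily small, then `a₁`, `C₁`, `c₀`. -/
def RowCN : Prop := ∀ (n : ℕ) (cl : ℝ), 0 < cl → ∃ κ C : ℝ, 0 < κ ∧ 0 < C ∧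
  ∀ (Cd σ ε : ℝ), 0 < Cd → 0 < σ → 0 < ε →
  ∃ a₁ C₁ c₀ : ℝ, 0 < a₁ ∧ 0 < C₁ ∧ 0 < c₀ ∧ c₀ ≤ 1 / 2 ∧
  ∀ (e : Fin n) (τ : ℝ) (φ φ₁ φ₂ φ₃ φ₄ : ℝ → ℝ) (I : Set ℝ), 1 / 2 ≤ τ → τ ≤ 4 →
  Sp Cd φ φ₁ φ₂ φ₃ φ₄ I →
  ∃ c c' : Fin n → VV n → ℝ, Fld C c c' (ZII e c₀ a₁ C₁ σ cl φ₁ φ₂ I) ∧
    ∀ z ∈ ZII e c₀ a₁ C₁ σ cl φ₁ φ₂ I,
    (∀ i j, |dx j (c i) z| ≤ ε * φ₂ (ht e z) ∧ |dy j (c' i) z| ≤ ε * φ₂ (ht e z)) ∧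
    ∀ U V : V n,
    κ * φ₂ (ht e z) * (s2 U + s2 V + s2 (U - V) / qq z) ≤
    hs (Wu e φ (Fs τ)) (U, V) z +
      tw (fun i => c i z) (gx (Wu e φ (Fs τ)) z) U +
      tw (fun i => c' i z) (gy (Wu e φ (Fs τ)) z) V

/-! ### The integral rows -/

/-- The data common to the integral rows. -/
structure Dat (e : Fin n) (Cs Cd c₀ a₁ C₁ σ : ℝ) (Φ Φ₁ Φ₂ Φ₃ Φ₄ φ φ₁ φ₂ φ₃ φ₄ : ℝ → ℝ)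
    (I : Set ℝ) (χ f g : VV n → ℝ) : Prop where
  pf : Pf Cs Φ Φ₁ Φ₂ Φ₃ Φ₄
  sp : Sp Cd φ φ₁ φ₂ φ₃ φ₄ I
  cχ : ContDiff ℝ ∞ χ
  sχ : tsupport χ ⊆ Zc e c₀ a₁ C₁ σ φ₁ φ₂ I
  tf : Te univ f
  tg : Te univ g

/-- **(AI)** region I, from `regI`. -/
def RowAI : Prop := ∀ n : ℕ, 3 ≤ n → ∃ δ η : ℝ, 0 < δ ∧ 0 < η ∧ ∀ (Cs Cd σ : ℝ), 0 < Cs → 0 < Cd →
  0 < σ → ∃ c₀ a₁ C₁ c C : ℝ, 0 < c₀ ∧ 0 < a₁ ∧ 0 < C₁ ∧ 0 < c ∧ 0 < C ∧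
  ∀ (e : Fin n) (Φ Φ₁ Φ₂ Φ₃ Φ₄ φ φ₁ φ₂ φ₃ φ₄ : ℝ → ℝ) (I : Set ℝ) (χ f g : VV n → ℝ),
  Dat e Cs Cd c₀ a₁ C₁ σ Φ Φ₁ Φ₂ Φ₃ Φ₄ φ φ₁ φ₂ φ₃ φ₄ I χ f g →
  (∀ z ∈ tsupport χ, tt e z ≤ c * φ₂ (ht e z)) →
  η * ∫ z, χ z ^ 2 * (Ee e 1 z * s2 (Yv (Wu e φ Φ) f g z) + Ee e 1 z ^ 2 * hb f g z ^ 2) ≤
    (∫ z, χ z ^ 2 * (8 * (1 - δ) * Ee e 1 z * s2 (Yv (Wu e φ Φ) f g z) -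
      32 * n * (1 + δ) * Ee e 1 z ^ 2 * hb f g z ^ 2 +
      C * Ee e 1 z * φ₂ (ht e z) * hd f g z ^ 2)) +
    C * ∫ z, Ee e 1 z * ((gq χ z + gp χ z) * hb f g z ^ 2 + gp χ z * hd f g z ^ 2)

/-- **(AW)** the `w`-margin, in the whole of zone C, from `A2'` with the weight `χ²`. -/
def RowAW : Prop := ∀ n : ℕ, 2 ≤ n → ∀ (Cs Cd σ κ : ℝ), 0 < Cs → 0 < Cd → 0 < σ → 0 < κ →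
  ∃ c₀ a₁ C₁ C : ℝ, 0 < c₀ ∧ 0 < a₁ ∧ 0 < C₁ ∧ 0 < C ∧
  ∀ (e : Fin n) (Φ Φ₁ Φ₂ Φ₃ Φ₄ φ φ₁ φ₂ φ₃ φ₄ : ℝ → ℝ) (I : Set ℝ) (χ f g : VV n → ℝ),
  Dat e Cs Cd c₀ a₁ C₁ σ Φ Φ₁ Φ₂ Φ₃ Φ₄ φ φ₁ φ₂ φ₃ φ₄ I χ f g →
  ∫ z, χ z ^ 2 * ww e φ₁ z * hd f g z ^ 2 ≤
    C * (∫ z, χ z ^ 2 * (Ee e 1 z * s2 (Yv (Wu e φ Φ) f g z) + Ee e 1 z ^ 2 * hb f g z ^ 2)) +
    κ * (∫ z, χ z ^ 2 * sq4 (Wu e φ Φ) f g z) +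
    C * ∫ z, Ee e 1 z * ((gq χ z + gp χ z) * hb f g z ^ 2 + gp χ z * hd f g z ^ 2)

/-- **(AE)** the energy of region II: `∫ m |W_x|² f² ≤ ∫ m |X* f|² + ..` for `m = χ² K`. -/
def RowAE : Prop := ∀ n : ℕ, 2 ≤ n → ∀ (Cs Cd σ cl : ℝ), 0 < Cs → 0 < Cd → 0 < σ → 0 < cl →
  ∃ c₀ a₁ C₁ C : ℝ, 0 < c₀ ∧ 0 < a₁ ∧ 0 < C₁ ∧ 0 < C ∧
  ∀ (e : Fin n) (Φ Φ₁ Φ₂ Φ₃ Φ₄ φ φ₁ φ₂ φ₃ φ₄ : ℝ → ℝ) (I : Set ℝ) (χ f g : VV n → ℝ),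
  Dat e Cs Cd c₀ a₁ C₁ σ Φ Φ₁ Φ₂ Φ₃ Φ₄ φ φ₁ φ₂ φ₃ φ₄ I χ f g →
  (∀ z ∈ tsupport χ, cl * φ₂ (ht e z) ≤ tt e z) →
  ∫ z, χ z ^ 2 * (φ₂ (ht e z) * (wf (Wu e φ Φ) f g z +
    (φ₁ (ht e z) ^ 2 + Ee e 1 z * tt e z) * (f z ^ 2 + g z ^ 2))) ≤
    8 * (∫ z, χ z ^ 2 * (φ₂ (ht e z) * zz (Wu e φ Φ) f g z)) +
    C * ∫ z, φ₂ (ht e z) * (gq χ z + gp χ z) * (f z ^ 2 + g z ^ 2)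

/-- **(AB)** `∫ χ² E² b²` in region II from `a34`: small multiples of the margins. -/
def RowAB : Prop := ∀ n : ℕ, 2 ≤ n → ∀ (Cs Cd σ cl ε : ℝ), 0 < Cs → 0 < Cd → 0 < σ → 0 < cl →
  0 < ε → ∃ c₀ a₁ C₁ C : ℝ, 0 < c₀ ∧ 0 < a₁ ∧ 0 < C₁ ∧ 0 < C ∧
  ∀ (e : Fin n) (Φ Φ₁ Φ₂ Φ₃ Φ₄ φ φ₁ φ₂ φ₃ φ₄ : ℝ → ℝ) (I : Set ℝ) (χ f g : VV n → ℝ),
  Dat e Cs Cd c₀ a₁ C₁ σ Φ Φ₁ Φ₂ Φ₃ Φ₄ φ φ₁ φ₂ φ₃ φ₄ I χ f g →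
  (∀ z ∈ tsupport χ, cl * φ₂ (ht e z) ≤ tt e z) →
  ∫ z, χ z ^ 2 * Ee e 1 z ^ 2 * hb f g z ^ 2 ≤
    ε * (∫ z, χ z ^ 2 * (φ₂ (ht e z) * (zz (Wu e φ Φ) f g z +
      s2 (Yv (Wu e φ Φ) f g z) / qq z +
      (φ₁ (ht e z) ^ 2 + Ee e 1 z * tt e z) * (f z ^ 2 + g z ^ 2)) +
      sq4 (Wu e φ Φ) f g z)) +
    C * ∫ z, (gq χ z + gp χ z) * (Ee e 1 z / φ₂ (ht e z) + φ₁ (ht e z) ^ 2 / φ₂ (ht e z) ^ 2) *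
      (f z ^ 2 + g z ^ 2)

/-- **(A0)** region 0, `N / E` bounded from below. -/
def RowA0 : Prop := ∀ n : ℕ, ∀ (Cs Cd a₀ B a₁ : ℝ), 0 < Cs → 0 < Cd → 0 < a₀ → 0 < B → 0 < a₁ →
  ∃ c₀ C₁ η C : ℝ, 0 < c₀ ∧ 0 < C₁ ∧ 0 < η ∧ 0 < C ∧
  ∀ (e : Fin n) (Φ Φ₁ Φ₂ Φ₃ Φ₄ φ φ₁ φ₂ φ₃ φ₄ : ℝ → ℝ) (I : Set ℝ) (χ f g : VV n → ℝ),
  Pf Cs Φ Φ₁ Φ₂ Φ₃ Φ₄ → Sp Cd φ φ₁ φ₂ φ₃ φ₄ I → ContDiff ℝ ∞ χ → Te univ f → Te univ g →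
  (∀ z ∈ tsupport χ, z ∈ Zn e c₀ I ∧ a₀ * Ee e 1 z ≤ φ₂ (ht e z) ∧
    φ₂ (ht e z) ≤ B * Ee e 1 z ∧ a₁ * Ee e 1 z ≤ φ₁ (ht e z) ∧ C₁ ≤ φ₁ (ht e z)) →
  η * (∫ z, χ z ^ 2 * (φ₂ (ht e z) * pe e (Wu e φ Φ) f g z ^ 2 +
      Ee e 1 z * s2 (Yv (Wu e φ Φ) f g z) +
      Ee e 1 z * φ₁ (ht e z) ^ 2 * (f z ^ 2 + g z ^ 2) + sq4 (Wu e φ Φ) f g z)) ≤
    (∫ z, χ z ^ 2 * (sq4 (Wu e φ Φ) f g z + st (Wu e φ Φ) f g z)) +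
    C * ∫ z, Ee e 1 z * (gq χ z + gp χ z) * (f z ^ 2 + g z ^ 2)

/-- `|v|²` of the fields. -/
def fm (c : Fin n → VV n → ℝ) (z : VV n) : ℝ := ∑ i, c i z ^ 2

/-- `∑ |∂_{x_j} c_i|`. -/
def dmx (c : Fin n → VV n → ℝ) (z : VV n) : ℝ := ∑ i, ∑ j, |dx j (c i) z|

def dmy (c : Fin n → VV n → ℝ) (z : VV n) : ℝ := ∑ i, ∑ j, |dy j (c i) z|

/-- **(WW)** the weighted Weyl inequality, absorbed form, any smooth weight. -/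
def RowWW : Prop := ∀ n : ℕ, ∃ C : ℝ, 0 < C ∧ ∀ (κ : ℝ), 0 < κ → κ ≤ 1 →
  ∀ (W om f g : VV n → ℝ) (c c' : Fin n → VV n → ℝ), ContDiff ℝ ∞ W → ContDiff ℝ ∞ om →
  Te univ f → Te univ g → (∀ i, ContDiff ℝ ∞ (c i)) → (∀ i, ContDiff ℝ ∞ (c' i)) →
  (∀ z, fm c z = 0 ∨ 0 < om z) → (∀ z, fm c' z = 0 ∨ 0 < om z) → (∀ z, 0 ≤ om z) →
  8 * (∫ z, tw (fun i => c i z) (gx W z) (Uu W f z) + tw (fun i => c' i z) (gy W z) (Uv W g z)) -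
    C * (∫ z, (dmx c z + fm c z / (κ * om z)) * (s2 (Uu W f z) + (∑ i, dx i W z ^ 2) * f z ^ 2) +
      (dmy c' z + fm c' z / (κ * om z)) * (s2 (Uv W g z) + (∑ i, dy i W z ^ 2) * g z ^ 2)) -
    C * (∫ z, Real.sqrt (fm c z) * Real.sqrt (∑ i, ∑ l, dx i (dx l W) z ^ 2) *
        Real.sqrt (∑ i, dx i W z ^ 2) * f z ^ 2 +
      Real.sqrt (fm c' z) * Real.sqrt (∑ i, ∑ l, dy i (dy l W) z ^ 2) *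
        Real.sqrt (∑ i, dy i W z ^ 2) * g z ^ 2) ≤
    κ * ∫ z, om z * ((fx n).P (fun _ => 0) W f z ^ 2 + (fy n).P (fun _ => 0) W g z ^ 2)

/-- **(ZC)** zone C, flat: the target. -/
def RowZC : Prop := ∀ n : ℕ, 3 ≤ n → ∃ η : ℝ, 0 < η ∧ ∀ (Cd σ : ℝ), 0 < Cd → 0 < σ →
  ∃ c₀ a₁ C₁ C : ℝ, 0 < c₀ ∧ 0 < a₁ ∧ 0 < C₁ ∧ 0 < C ∧
  ∀ (e : Fin n) (τ : ℝ) (φ φ₁ φ₂ φ₃ φ₄ : ℝ → ℝ) (I : Set ℝ) (χ f g : VV n → ℝ),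
  1 / 2 ≤ τ → τ ≤ 4 → Sp Cd φ φ₁ φ₂ φ₃ φ₄ I → ContDiff ℝ ∞ χ →
  tsupport χ ⊆ Zc e c₀ a₁ C₁ σ φ₁ φ₂ I → Te univ f → Te univ g →
  η * (∫ z, χ z ^ 2 * (Ee e 1 z ^ 2 * hb f g z ^ 2 + ww e φ₁ z * hd f g z ^ 2 +
      φ₂ (ht e z) * pe e (Wu e φ (Fs τ)) f g z ^ 2 + Ee e 1 z * s2 (Yv (Wu e φ (Fs τ)) f g z) +
      sq4 (Wu e φ (Fs τ)) f g z +
      (if φ₂ (ht e z) ≤ tt e z then φ₂ (ht e z) * (zz (Wu e φ (Fs τ)) f g z +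
        (φ₁ (ht e z) ^ 2 + Ee e 1 z * tt e z) * (f z ^ 2 + g z ^ 2)) else 0))) ≤
    (∫ z, χ z ^ 2 * (sq4 (Wu e φ (Fs τ)) f g z + st (Wu e φ (Fs τ)) f g z)) +
    C * (∫ z, Ee e 1 z * ((gq χ z + gp χ z) * hb f g z ^ 2 + gp χ z * hd f g z ^ 2)) +
    C * (∫ z, (gq χ z + gp χ z) * (φ₂ (ht e z) * (f z ^ 2 + g z ^ 2) +
      (if φ₂ (ht e z) ≤ C * tt e z then 1 / φ₂ (ht e z) * (zz (Wu e φ (Fs τ)) f g z +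
        wf (Wu e φ (Fs τ)) f g z + (Ee e 1 z + φ₁ (ht e z) ^ 2) * (f z ^ 2 + g z ^ 2)) else 0)))

end Vale.Agent.P088.R2.H205.C
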