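import Vale.Agent.P088.R2.H205.C.SpecP
import Vale.Agent.P088.R2.H961.W.Op

/-!
# P088, stage 3, zone C: the integral rows of region I, for a general weight (curved metrics allowed)
-/

open MeasureTheory Set
open scoped ContDiff

noncomputable section

namespace Vale.Agent.P088.R2.H205.CP

open Vale.Agent.P088.LR Vale.Agent.P088.HY
open Vale.Agent.P088.R2.H644 Vale.Agent.P088.R2.H961.GW

variable {n : ℕ}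

/-- `X* f = f W_x - f_x`. -/
def Uu (W f : VV n → ℝ) (z : VV n) : V n := fun i => f z * dx i W z - dx i f z

/-- `Y* g = g W_y - g_y`. -/
def Uv (W g : VV n → ℝ) (z : VV n) : V n := fun i => g z * dy i W z - dy i g z

def hb (f g : VV n → ℝ) (z : VV n) : ℝ := (f z + g z) / 2

def hd (f g : VV n → ℝ) (z : VV n) : ℝ := (f z - g z) / 2

/-- `∂_q = (∂_x - ∂_y) / 2`, `∂_p = ∂_x + ∂_y`. -/
def dq (i : Fin n) (f : VV n → ℝ) (z : VV n) : ℝ := (dx i f z - dy i f z) / 2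

def dp (i : Fin n) (f : VV n → ℝ) (z : VV n) : ℝ := dx i f z + dy i f z

def gq (f : VV n → ℝ) (z : VV n) : ℝ := ∑ i, dq i f z ^ 2

def gp (f : VV n → ℝ) (z : VV n) : ℝ := ∑ i, dp i f z ^ 2

/-- `q = x - y`, `p = x + y`. -/
def vq (z : VV n) : V n := z.1 - z.2

def vp (z : VV n) : V n := z.1 + z.2

/-- The cells of region I: `W_q ≈ E q`, `W_p` slowly varying. -/
structure Cel (κ₀ C₂ c₀ c K₀ lam : ℝ) (W Ef Kf : VV n → ℝ) (O : Set (VV n)) : Prop where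
  k0 : ∀ z ∈ O, K₀ ≤ Kf z
  r0 : ∀ z ∈ O, qq z ≤ c₀ ^ 2
  t0 : ∀ z ∈ O, Ef z * qq z ≤ c * Kf z
  np : ∀ z ∈ O, ∃ i, dp i W z ≠ 0
  ef : ∀ z ∈ O, ∀ z' ∈ O, ‖vp z - vp z'‖ ≤ lam →
    |Ef z - Ef z'| ≤ Ef z * (C₂ * ‖vp z - vp z'‖ + κ₀)
  kf : ∀ z ∈ O, ∀ z' ∈ O, ‖vp z - vp z'‖ ≤ lam →
    |Kf z - Kf z'| ≤ Kf z * (C₂ * ‖vp z - vp z'‖ + κ₀)
  wq : ∀ z ∈ O, ∀ z' ∈ O, ‖vp z - vp z'‖ ≤ lam → ∀ i,
    |dq i W z - dq i W z' - Ef z' * (vq z i - vq z' i)| ≤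
      κ₀ * Ef z * ‖vq z - vq z'‖ + C₂ * Ef z * (‖vq z‖ + ‖vq z'‖) * ‖vp z - vp z'‖ +
      κ₀ * Real.sqrt (Ef z)
  wp : ∀ z ∈ O, ∀ z' ∈ O, ‖vp z - vp z'‖ ≤ lam → ∀ i,
    |dp i W z - dp i W z'| ≤ C₂ * ((Kf z + Ef z * (‖vq z‖ + ‖vq z'‖) ^ 2) * ‖vp z - vp z'‖ +
      Ef z * (‖vq z‖ + ‖vq z'‖) * ‖vq z - vq z'‖ + Real.sqrt (Kf z))

/-- **(AI)** the freezing inequality of region I with the cut-off inside. -/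
def RowAI : Prop := ∀ n : ℕ, 3 ≤ n → ∃ δ η κ₀ : ℝ, 0 < δ ∧ 0 < η ∧ 0 < κ₀ ∧
  ∀ C₂ : ℝ, 0 < C₂ → ∃ c₀ c K₀ lam C : ℝ, 0 < c₀ ∧ 0 < c ∧ 0 < K₀ ∧ 0 < lam ∧ 0 < C ∧
  ∀ (O : Set (VV n)) (W Ef Kf χ f g : VV n → ℝ), ContDiff ℝ ∞ W → Continuous Ef →
  Continuous Kf → (∀ z, 0 < Ef z) → Cel κ₀ C₂ c₀ c K₀ lam W Ef Kf O →
  ContDiff ℝ ∞ χ → tsupport χ ⊆ O → Te univ f → Te univ g →
  η * ∫ z, χ z ^ 2 * (Ef z * s2 (Uu W f z - Uv W g z) + Ef z ^ 2 * hb f g z ^ 2) ≤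
    (∫ z, χ z ^ 2 * (8 * (1 - δ) * Ef z * s2 (Uu W f z - Uv W g z) -
      32 * n * (1 + δ) * Ef z ^ 2 * hb f g z ^ 2 + C * Ef z * Kf z * hd f g z ^ 2)) +
    C * ∫ z, Ef z * ((gq χ z + gp χ z) * hb f g z ^ 2 + gp χ z * hd f g z ^ 2)

/-- **(CM)** one direction: `∫ m (ν·W_p)² c²` from `Y` and `b`. -/
def RowCM : Prop := ∀ n : ℕ, ∃ C : ℝ, 0 < C ∧
  ∀ (W m h M f g : VV n → ℝ) (ν : Fin n → VV n → ℝ), ContDiff ℝ ∞ W → ContDiff ℝ ∞ m →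
  (∀ z, 0 ≤ m z) → (∀ i, ContDiff ℝ ∞ (ν i)) → (∀ z, M z = ∑ i, ν i z * dp i W z) →
  (∀ z ∈ tsupport m, ∑ i, ν i z ^ 2 ≤ 1) →
  (∀ z, (∑ i, ν i z * dp i m z) ^ 2 ≤ m z * h z) → Continuous h → (∀ z, 0 ≤ h z) →
  (∀ z ∈ tsupport m, |(∑ i, ∑ j, ν i z * dp i (ν j) z * dp j W z) +
    (∑ i, ∑ j, ν i z * ν j z * dp i (dp j W) z)| ≤ M z ^ 2 / 8) →
  (∀ z ∈ tsupport m, |∑ i, dp i (ν i) z| ≤ |M z| / 8) →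
  Te univ f → Te univ g →
  ∫ z, m z * M z ^ 2 * hd f g z ^ 2 ≤
    C * ∫ z, (m z * (s2 (Uu W f z - Uv W g z) + s2 (Uu W (hb f g) z) + s2 (Uv W (hb f g) z)) +
      h z * hd f g z ^ 2)

/-- **(EN)** the energy inequality of one slot, weighted square. -/
def RowEN : Prop := ∃ C : ℝ, 0 < C ∧ ∀ (n : ℕ) (σ : Sl (VV n) (Fin n)) (U : Set (VV n))
  (θ : VV n → ℝ), σ.Ok U θ →
  (∀ z ∈ U, ∀ ξ : Fin n → ℝ, 0 ≤ ∑ i, ∑ j, σ.s i j z * ξ i * ξ j) →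
  ∀ (v W m h om k a : VV n → ℝ) (κ : ℝ), Sm U v → Sm U W → Sm U m → Sm U h → Sm U om → Sm U k →
  Te U a → 0 < κ → (∀ z ∈ U, 0 ≤ m z ∧ 0 ≤ h z ∧ 0 ≤ om z ∧ 0 ≤ k z) →
  (∀ z ∈ U, σ.Γ m m z ≤ m z * h z) → (∀ z ∈ U, m z ^ 2 ≤ om z * k z) →
  In U θ (fun z => m z * σ.Γ a a z) ≤
    C * In U θ (fun z => (m z * σ.F W z + m z * |v z| + h z + k z / κ) * a z ^ 2) +
    κ * In U θ (fun z => om z * σ.P v W a z ^ 2)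

end Vale.Agent.P088.R2.H205.CP
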