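import Vale.Agent.P088.R2.H644.W.Wt

/-!
# P088, stage 3, zone C (regions 0 and I): the pointwise rows, flat model, free vectors
-/

open Set
open scoped ContDiff

noncomputable section

namespace Vale.Agent.P088.R2.H205.CP

open Vale.Agent.P088.LR Vale.Agent.P088.HY
open Vale.Agent.P088.R2.H644

variable {n : ℕ}

/-- `|v|²`. -/
def s2 (v : V n) : ℝ := ∑ i, v i ^ 2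

def lx (W : VV n → ℝ) (z : VV n) : ℝ := ∑ i, dx i (dx i W) z

def ly (W : VV n → ℝ) (z : VV n) : ℝ := ∑ i, dy i (dy i W) z

/-- The zero and first order part of the star density on free `U`, `V`, `x`, `y`. -/
def q0 (W : VV n → ℝ) (U V : V n) (x y : ℝ) (z : VV n) : ℝ :=
  -(8 * ((∑ i, ∑ l, dx i (dx l W) z ^ 2) * x ^ 2 +
      2 * ((∑ i, ∑ k, dx i (dy k W) z ^ 2) * (x * y)) +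
      (∑ i, ∑ l, dy i (dy l W) z ^ 2) * y ^ 2)) -
    8 * (x * (∑ i, dx i (lx W) z * U i) + y * (∑ i, dx i (ly W) z * U i) +
      x * (∑ i, dy i (lx W) z * V i) + y * (∑ i, dy i (ly W) z * V i)) +
    2 * (lx (lx W) z * x ^ 2 + 2 * (lx (ly W) z * (x * y)) + ly (ly W) z * y ^ 2)

/-- The star density on free `U`, `V`, `x`, `y`. -/
def st (W : VV n → ℝ) (U V : V n) (x y : ℝ) (z : VV n) : ℝ :=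
  8 * hs W (U, V) z + q0 W U V x y z

/-- `u = ν·x + ν·y`. -/
def hν (ν : V n) (z : VV n) : ℝ := ∑ i, ν i * (z.1 i + z.2 i)

/-- The slope and the stiffness with four derivatives. -/
structure WF where
  φ : ℝ → ℝ
  φ₁ : ℝ → ℝ
  φ₂ : ℝ → ℝ
  φ₃ : ℝ → ℝ
  φ₄ : ℝ → ℝ
  G : ℝ → ℝ
  G₁ : ℝ → ℝ
  G₂ : ℝ → ℝ
  G₃ : ℝ → ℝ
  G₄ : ℝ → ℝ

/-- The profile with four derivatives. -/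
structure PF where
  Φ : ℝ → ℝ
  Φ₁ : ℝ → ℝ
  Φ₂ : ℝ → ℝ
  Φ₃ : ℝ → ℝ
  Φ₄ : ℝ → ℝ

/-- The flat weight `φ(u) + G(u) Φ(|x - y|²)`. -/
def Wg (ν : V n) (w : WF) (p : PF) (z : VV n) : ℝ := w.φ (hν ν z) + w.G (hν ν z) * p.Φ (qq z)

/-- `S(r) = Φ(r²)` near `0`, `Φ(s) = s/2 + O(s²)`. -/
structure PD (Cs : ℝ) (p : PF) : Prop where
  sm : ContDiff ℝ ∞ p.Φ
  d1 : ∀ s, HasDerivAt p.Φ (p.Φ₁ s) s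
  d2 : ∀ s, HasDerivAt p.Φ₁ (p.Φ₂ s) s
  d3 : ∀ s, HasDerivAt p.Φ₂ (p.Φ₃ s) s
  d4 : ∀ s, HasDerivAt p.Φ₃ (p.Φ₄ s) s
  b0 : ∀ s, 0 ≤ s → s ≤ 1 → |p.Φ s - s / 2| ≤ Cs * s ^ 2
  b1 : ∀ s, 0 ≤ s → s ≤ 1 → |p.Φ₁ s - 1 / 2| ≤ Cs * s
  b2 : ∀ s, 0 ≤ s → s ≤ 1 → |p.Φ₂ s| ≤ Cs ∧ |p.Φ₃ s| ≤ Cs ∧ |p.Φ₄ s| ≤ Cs
  ps : ∀ s, 0 ≤ s → s ≤ 1 → 0 ≤ p.Φ s ∧ p.Φ s ≤ s

/-- `N = φ₁`, `K = φ₂`, `E = G` on the heights `I`; `E' = E` up to `ε`. -/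
structure WD (ε Cd : ℝ) (w : WF) (I : Set ℝ) : Prop where
  sm : ContDiff ℝ ∞ w.φ
  d1 : ∀ s, HasDerivAt w.φ (w.φ₁ s) s
  d2 : ∀ s, HasDerivAt w.φ₁ (w.φ₂ s) s
  d3 : ∀ s, HasDerivAt w.φ₂ (w.φ₃ s) s
  d4 : ∀ s, HasDerivAt w.φ₃ (w.φ₄ s) s
  sg : ContDiff ℝ ∞ w.G
  e1 : ∀ s, HasDerivAt w.G (w.G₁ s) s
  e2 : ∀ s, HasDerivAt w.G₁ (w.G₂ s) s
  e3 : ∀ s, HasDerivAt w.G₂ (w.G₃ s) s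
  e4 : ∀ s, HasDerivAt w.G₃ (w.G₄ s) s
  gp : ∀ s ∈ I, 0 < w.G s
  np : ∀ s ∈ I, 0 < w.φ₁ s
  kp : ∀ s ∈ I, 0 < w.φ₂ s
  kn : ∀ s ∈ I, w.φ₂ s ≤ 3 * w.φ₁ s
  kd : ∀ s ∈ I, |w.φ₃ s| ≤ Cd * w.φ₂ s ∧ |w.φ₄ s| ≤ Cd * w.φ₂ s
  g1 : ∀ s ∈ I, |w.G₁ s - w.G s| ≤ ε * w.G s
  g2 : ∀ s ∈ I, |w.G₂ s - w.G s| ≤ ε * w.G s
  g3 : ∀ s ∈ I, |w.G₃ s - w.G s| ≤ ε * w.G s
  g4 : ∀ s ∈ I, |w.G₄ s - w.G s| ≤ ε * w.G s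

/-- **(Q0)** the quantum terms, free parameter `lam`. `K = φ₂`, `E = G` at `u = hν ν z`. -/
def RowQ0 : Prop := ∀ (n : ℕ) (Cs Cd δ : ℝ), 0 < Cs → 0 < Cd → 0 < δ →
  ∃ a ε c₀ C₁ C : ℝ, 0 < a ∧ 0 < ε ∧ 0 < c₀ ∧ c₀ ≤ 1 / 2 ∧ 0 < C₁ ∧ 0 < C ∧
  ∀ (ν : V n) (w : WF) (p : PF) (I : Set ℝ), s2 ν = 1 → PD Cs p → WD ε Cd w I →
  ∀ z : VV n, hν ν z ∈ I → qq z ≤ 4 * c₀ ^ 2 → C₁ ≤ w.φ₂ (hν ν z) →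
  w.φ₂ (hν ν z) ≤ a * w.G (hν ν z) →
  ∀ (U V : V n) (x y lam : ℝ), 0 < lam →
  -(32 * n * (1 + δ) * w.G (hν ν z) ^ 2 * ((x + y) / 2) ^ 2) - lam * s2 (U - V) -
    δ * w.φ₂ (hν ν z) * (∑ i, ν i * (U i + V i)) ^ 2 -
    C * w.G (hν ν z) * (w.φ₂ (hν ν z) + w.G (hν ν z) * qq z) * ((x - y) / 2) ^ 2 -
    C * w.G (hν ν z) ^ 2 / lam * (((x - y) / 2) ^ 2 + qq z * ((x + y) / 2) ^ 2) ≤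
  q0 (Wg ν w p) U V x y z

/-- **(PI)** region I. -/
def RowPI : Prop := ∀ (n : ℕ) (Cs Cd δ : ℝ), 0 < Cs → 0 < Cd → 0 < δ →
  ∃ a ε c₀ c C₁ C : ℝ, 0 < a ∧ 0 < ε ∧ 0 < c₀ ∧ c₀ ≤ 1 / 2 ∧ 0 < c ∧ 0 < C₁ ∧ 0 < C ∧
  ∀ (ν : V n) (w : WF) (p : PF) (I : Set ℝ), s2 ν = 1 → PD Cs p → WD ε Cd w I →
  ∀ z : VV n, hν ν z ∈ I → qq z ≤ 4 * c₀ ^ 2 → C₁ ≤ w.φ₂ (hν ν z) →
  w.φ₂ (hν ν z) ≤ a * w.G (hν ν z) → w.G (hν ν z) * qq z ≤ c * w.φ₂ (hν ν z) →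
  ∀ (U V : V n) (x y : ℝ),
  8 * (1 - δ) * w.G (hν ν z) * s2 (U - V) +
    w.φ₂ (hν ν z) * (∑ i, ν i * (U i + V i)) ^ 2 -
    32 * n * (1 + δ) * w.G (hν ν z) ^ 2 * ((x + y) / 2) ^ 2 -
    C * w.G (hν ν z) * w.φ₂ (hν ν z) * ((x - y) / 2) ^ 2 ≤ st (Wg ν w p) U V x y z

/-- **(P0)** region 0: no relation between `N`, `K` and `E`. -/
def RowP0 : Prop := ∀ (n : ℕ) (Cs Cd : ℝ), 0 < Cs → 0 < Cd →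
  ∃ ε c₀ c C : ℝ, 0 < ε ∧ 0 < c₀ ∧ c₀ ≤ 1 / 2 ∧ 0 < c ∧ 0 < C ∧
  ∀ (ν : V n) (w : WF) (p : PF) (I : Set ℝ), s2 ν = 1 → PD Cs p → WD ε Cd w I →
  ∀ z : VV n, hν ν z ∈ I → qq z ≤ 4 * c₀ ^ 2 → w.G (hν ν z) * qq z ≤ c * w.φ₂ (hν ν z) →
  ∀ (U V : V n) (x y : ℝ),
  w.G (hν ν z) * s2 (U - V) + w.φ₂ (hν ν z) * (∑ i, ν i * (U i + V i)) ^ 2 -
    C * (w.G (hν ν z) + w.G (hν ν z) ^ 2 + w.φ₂ (hν ν z) + w.φ₂ (hν ν z) ^ 2 +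
      w.G (hν ν z) ^ 2 / w.φ₂ (hν ν z)) * (x ^ 2 + y ^ 2) ≤ st (Wg ν w p) U V x y z

end Vale.Agent.P088.R2.H205.CP
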